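import Crest.Agent.Lib.PolyTime.Codes

/-!
# Polynomial time toolkit: everything (architect helper64)

Interface: `PEnc α` (types with codes), `PT f` (polynomial time function between such types),
`PB f` (polynomially bounded function to ℕ), `Un` (unary numbers: use them for loop variables).
Exit: `PT.polyTime : PT f → Crest.Complexity.PolyTime f` for `f : List Bool → List Bool`.

* First order combinations (pairs, projections, `if`, arithmetic, list operations, `flatMap`, `map`,
  `filter`, comparisons) are proved by `fun_prop`; side conditions `PB _` by `pb`:
  `fun_prop (disch := pb)`.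
* Loops over `List.range (n a)`: `PT.mapRange`, `PT.flatMapRange`, `PT.sumRange`, `PT.prodRange`,
  `PT.allRange`, ...: the body is a function `f : α → ℕ → _` and one has to prove
  `PT (fun p : α × Un => f p.1 p.2.val)`, so that the loop variable is polynomially bounded.
* General recursions: `PT.natRec`, `PT.iterate`, `PT.foldl`, `PT.foldl_inv`, `PT.foldl_add`
  (the sizes of the intermediate values must be polynomially bounded).

How to write a generator: define `gen : List Bool → List Bool` by parsing the input with `readUnary`,
`readNat` and then combining; see the example below.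
-/

set_option autoImplicit false

namespace Crest.Agent.PolyT

open Crest.Complexity PEnc

section example1

/-- Example: input `1^n 0 1^s`; output the natCode of `n * s` and then, for all `i < n`, `j < s`, the
integer `(-1)^i * C(i, j) * 2^j - ∑_{k < j} k^i` as a rational code. -/
def exGen (w : List Bool) : List Bool :=
  Crest.Enc.natCode ((readUnary w).1 * (readUnary w).2.length) ++
    (List.range (readUnary w).1).flatMap fun i => (List.range (readUnary w).2.length).flatMap fun j =>
    Crest.Enc.ratCode (((bif i.bodd then -((i.choose j * 2 ^ j : ℕ) : ℤ)
      else ((i.choose j * 2 ^ j : ℕ) : ℤ)) - ((∑ k ∈ Finset.range j, k ^ i : ℕ) : ℤ) : ℤ) : ℚ)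

theorem exGen_polyTime : PolyTime exGen := by
  apply PT.polyTime
  unfold exGen
  refine PT.append (by fun_prop) (PT.flatMapRange (by fun_prop) (PB.readUnary_fst PT.id) ?_)
  refine PT.flatMapRange (by fun_prop) (by pb) ?_
  refine PT.ratCode_int (PT.intSub (PT.intCond (by fun_prop) ?_) (PT.natCast ?_))
  · fun_prop (disch := pb)
  · refine PT.sumRange (by fun_prop) (by pb) ?_
    fun_prop (disch := pb)

end example1

end Crest.Agent.PolyT
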