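import Crest.Agent.Lib.PolyTime.Enc
import Crest.Agent.Lib.PolyTime.CoreBasic
import Crest.Agent.Lib.PolyTime.CorePair
import Crest.Agent.Lib.PolyTime.CoreUnpair
import Crest.Agent.Lib.PolyTime.CoreIte

/-! # PT_PTBASIC: first closure properties of `PT` (from the `polyTime_*` theorems)

All short.  `fun_prop` can prove `PT (fun a => ...)` for combinations of these. -/

set_option autoImplicit false

namespace Crest.Agent.PolyT

open Crest.Complexity PEnc

variable {α β γ δ : Type} [PEnc α] [PEnc β] [PEnc γ] [PEnc δ]

@[fun_prop] protected theorem PT.id : PT (fun a : α => a) :=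
  ⟨fun x => x, polyTime_id, fun _ => rfl⟩

@[fun_prop] protected theorem PT.const (b : β) : PT (fun _ : α => b) :=
  ⟨fun _ => enc b, polyTime_const _, fun _ => rfl⟩

@[fun_prop] protected theorem PT.comp {g : β → γ} {f : α → β} (hg : PT g) (hf : PT f) :
    PT (fun a => g (f a)) := by
  obtain ⟨g', hg', h1⟩ := hg
  obtain ⟨f', hf', h2⟩ := hf
  exact ⟨fun x => g' (f' x), polyTime_comp hg' hf', fun a => by simp only [h2, h1]⟩

@[fun_prop] protected theorem PT.pair {f : α → β} {g : α → γ} (hf : PT f) (hg : PT g) :
    PT (fun a => (f a, g a)) := by
  obtain ⟨g', hg', h1⟩ := hg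
  obtain ⟨f', hf', h2⟩ := hf
  exact ⟨fun x => pairCode (f' x) (g' x), polyTime_pair hf' hg', fun a => by
    simp only [h2, h1, enc_mk]⟩

@[fun_prop] protected theorem PT.fst {f : α → β × γ} (hf : PT f) : PT (fun a => (f a).1) := by
  obtain ⟨f', hf', h2⟩ := hf
  exact ⟨fun x => fstCode (f' x), polyTime_comp polyTime_fst hf', fun a => by
    simp only [h2, enc_prod, fstCode_pairCode]⟩

@[fun_prop] protected theorem PT.snd {f : α → β × γ} (hf : PT f) : PT (fun a => (f a).2) := by
  obtain ⟨f', hf', h2⟩ := hf
  exact ⟨fun x => sndCode (f' x), polyTime_comp polyTime_snd hf', fun a => by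
    simp only [h2, enc_prod, sndCode_pairCode]⟩

/-- the value of a `PT` function has polynomial size -/
protected theorem PT.sz_le {f : α → β} (hf : PT f) : ∃ p : Polynomial ℕ, ∀ a, sz (f a) ≤ p.eval (sz a) := by
  obtain ⟨f', hf', h2⟩ := hf
  obtain ⟨q, hq⟩ := polyTime_length_le hf'
  refine ⟨q, fun a => ?_⟩
  have h := hq (enc a)
  rw [h2] at h
  exact h

/-- two functions with the same codes -/
protected theorem PT.of_enc_eq {f : α → β} {g : α → γ} (hg : PT g) (h : ∀ a, enc (f a) = enc (g a)) :
    PT f := by
  obtain ⟨g', hg', h1⟩ := hg
  exact ⟨g', hg', fun a => by rw [h1, h]⟩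

protected theorem PT.of_polyTime {f : α → β} (g : List Bool → List Bool) (hg : PolyTime g)
    (h : ∀ a, enc (f a) = g (enc a)) : PT f :=
  ⟨g, hg, fun a => (h a).symm⟩

/-- comparison with a fixed string -/
private theorem basicA_eqTest (w : List Bool) :
    ∃ c : List Bool → List Bool, PolyTime c ∧ ∀ x, (c x).head? = some true ↔ x = w := by
  induction w with
  | nil =>
    refine ⟨fun x => [x.isEmpty], polyTime_isEmpty, fun x => ?_⟩
    cases x <;> simp
  | cons b w ih =>
    obtain ⟨c, hc, h⟩ := ih
    have ht : PolyTime (fun x => c x.tail) := polyTime_comp hc polyTime_tail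
    cases b with
    | true =>
      refine ⟨fun x => if x.head? = some true then c x.tail else [],
        polyTime_ite polyTime_id ht polyTime_nil, fun x => ?_⟩
      cases x with
      | nil => simp
      | cons b x => cases b <;> simp [h]
    | false =>
      refine ⟨fun x => if ([x.isEmpty] : List Bool).head? = some true then []
          else if x.head? = some true then [] else c x.tail,
        polyTime_ite polyTime_isEmpty polyTime_nil (polyTime_ite polyTime_id polyTime_nil ht),
        fun x => ?_⟩
      cases x with
      | nil => simp
      | cons b x => cases b <;> simp [h]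

/-- every function on a type with finitely many elements is `PT` -/
protected theorem PT.of_finite [Finite α] (f : α → β) : PT f := by
  classical
  have := Fintype.ofFinite α
  have key : ∀ s : Finset α, ∃ g : List Bool → List Bool, PolyTime g ∧
      ∀ a ∈ s, g (enc a) = enc (f a) := by
    intro s
    induction s using Finset.induction_on with
    | empty => exact ⟨fun x => x, polyTime_id, fun a ha => absurd ha (Finset.notMem_empty a)⟩
    | insert a s _ ih =>
      obtain ⟨g, hg, h⟩ := ih
      obtain ⟨c, hc, h'⟩ := basicA_eqTest (enc a)
      refine ⟨fun x => if (c x).head? = some true then enc (f a) else g x,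
        polyTime_ite hc (polyTime_const _) hg, fun b hb => ?_⟩
      by_cases hba : b = a
      · subst hba
        simp only [(h' (enc b)).2 rfl, if_true]
      · have hne : ¬ (c (enc b)).head? = some true := fun h1 => hba (enc_inj ((h' _).1 h1))
        simp only [hne, if_false]
        exact h b ((Finset.mem_insert.1 hb).resolve_left hba)
  obtain ⟨g, hg, h⟩ := key Finset.univ
  exact ⟨g, hg, fun a => h a (Finset.mem_univ a)⟩

@[fun_prop] protected theorem PT.cond {c : α → Bool} {f g : α → β} (hc : PT c) (hf : PT f) (hg : PT g) :
    PT (fun a => bif c a then f a else g a) := by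
  obtain ⟨c', hc', h0⟩ := hc
  obtain ⟨f', hf', h1⟩ := hf
  obtain ⟨g', hg', h2⟩ := hg
  refine ⟨_, polyTime_ite hc' hf' hg', fun a => ?_⟩
  simp only [h0, h1, h2, enc_bool, List.head?_cons]
  cases c a <;> simp

@[fun_prop] protected theorem PT.ite {c : α → Prop} [DecidablePred c] {f g : α → β}
    (hc : PT (fun a => decide (c a))) (hf : PT f) (hg : PT g) :
    PT (fun a => if c a then f a else g a) := by
  have h : (fun a => if c a then f a else g a) = fun a => bif decide (c a) then f a else g a := by
    funext a
    by_cases h1 : c a <;> simp [h1]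
  rw [h]
  exact PT.cond hc hf hg

@[fun_prop] protected theorem PT.not {f : α → Bool} (hf : PT f) : PT (fun a => !(f a)) := by
  have h : (fun a => !(f a)) = fun a => bif f a then false else true := by
    funext a; cases f a <;> rfl
  rw [h]
  exact PT.cond hf (PT.const _) (PT.const _)

@[fun_prop] protected theorem PT.and {f g : α → Bool} (hf : PT f) (hg : PT g) :
    PT (fun a => f a && g a) := by
  have h : (fun a => f a && g a) = fun a => bif f a then g a else false := by
    funext a; cases f a <;> rfl
  rw [h]
  exact PT.cond hf hg (PT.const _)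

@[fun_prop] protected theorem PT.or {f g : α → Bool} (hf : PT f) (hg : PT g) :
    PT (fun a => f a || g a) := by
  have h : (fun a => f a || g a) = fun a => bif f a then true else g a := by
    funext a; cases f a <;> rfl
  rw [h]
  exact PT.cond hf (PT.const _) hg

@[fun_prop] protected theorem PT.xor {f g : α → Bool} (hf : PT f) (hg : PT g) :
    PT (fun a => Bool.xor (f a) (g a)) := by
  have h : (fun a => Bool.xor (f a) (g a)) = fun a => bif f a then !(g a) else g a := by
    funext a; cases f a <;> cases g a <;> rfl
  rw [h]
  exact PT.cond hf (PT.not hg) hg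

@[fun_prop] protected theorem PT.decide_bool {f : α → Bool} (hf : PT f) :
    PT (fun a => decide (f a = true)) := by
  have h : (fun a => decide (f a = true)) = f := by
    funext a; cases f a <;> rfl
  rw [h]
  exact hf

@[fun_prop] protected theorem PT.decide_not {c : α → Prop} [DecidablePred c]
    (hc : PT (fun a => decide (c a))) : PT (fun a => decide (¬ c a)) := by
  simpa only [decide_not] using PT.not hc

@[fun_prop] protected theorem PT.decide_and {c d : α → Prop} [DecidablePred c] [DecidablePred d]
    (hc : PT (fun a => decide (c a))) (hd : PT (fun a => decide (d a))) :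
    PT (fun a => decide (c a ∧ d a)) := by
  simpa only [Bool.decide_and] using PT.and hc hd

@[fun_prop] protected theorem PT.decide_or {c d : α → Prop} [DecidablePred c] [DecidablePred d]
    (hc : PT (fun a => decide (c a))) (hd : PT (fun a => decide (d a))) :
    PT (fun a => decide (c a ∨ d a)) := by
  simpa only [Bool.decide_or] using PT.or hc hd

/-! ### options and lists: constructors and case distinctions -/

@[fun_prop] protected theorem PT.some {f : α → β} (hf : PT f) : PT (fun a => some (f a)) := by
  obtain ⟨g, hg, h⟩ := hf
  exact ⟨fun x => true :: g x, polyTime_comp (polyTime_cons true) hg, fun a => by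
    simp only [h, enc_some]⟩

@[fun_prop] protected theorem PT.isSome {f : α → Option β} (hf : PT f) : PT (fun a => (f a).isSome) := by
  obtain ⟨g, hg, h⟩ := hf
  refine ⟨_, polyTime_ite hg (polyTime_const [true]) (polyTime_const [false]), fun a => ?_⟩
  simp only [h]
  cases f a with
  | none => simp [enc_none, enc_bool]
  | some b => simp [enc_some, enc_bool]

protected theorem PT.optCases {o : α → Option β} {f : α → γ} {g : α → β → γ} (ho : PT o) (hf : PT f)
    (hg : PT (fun p : α × β => g p.1 p.2)) :
    PT (fun a => (o a).elim (f a) (g a)) := by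
  obtain ⟨go, hgo, h1⟩ := ho
  obtain ⟨gf, hgf, h2⟩ := hf
  obtain ⟨gg, hgg, h3⟩ := hg
  refine ⟨_, polyTime_ite hgo (polyTime_comp hgg
    (polyTime_pair polyTime_id (polyTime_comp polyTime_tail hgo))) hgf, fun a => ?_⟩
  simp only [h1, h2]
  cases o a with
  | none => simp [enc_none]
  | some b =>
    simp only [enc_some, List.head?_cons, if_true, List.tail_cons, Option.elim_some]
    exact h3 (a, b)

@[fun_prop] protected theorem PT.getD {o : α → Option β} {f : α → β} (ho : PT o) (hf : PT f) :
    PT (fun a => (o a).getD (f a)) := by
  have h := PT.optCases (g := fun _ b => b) ho hf (by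
    obtain ⟨g, hg, h⟩ : PT (fun p : α × β => p.2) :=
      ⟨_, polyTime_snd, fun p => by rw [enc_prod, sndCode_pairCode]⟩
    exact ⟨g, hg, h⟩)
  have e : (fun a => (o a).getD (f a)) = fun a => (o a).elim (f a) (fun b => b) := by
    funext a
    cases o a <;> rfl
  rw [e]
  exact h

@[fun_prop] protected theorem PT.cons {f : α → β} {l : α → List β} (hf : PT f) (hl : PT l) :
    PT (fun a => f a :: l a) := by
  obtain ⟨g, hg, h⟩ := hf
  obtain ⟨g', hg', h'⟩ := hl
  exact ⟨_, polyTime_pair hg hg', fun a => by simp only [h, h', enc_cons]⟩

/-- head and tail -/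
def uncons {β : Type} : List β → Option (β × List β)
  | [] => none
  | b :: l => some (b, l)

@[simp] theorem uncons_nil {β : Type} : uncons ([] : List β) = none := rfl
@[simp] theorem uncons_cons {β : Type} (b : β) (l : List β) : uncons (b :: l) = some (b, l) := rfl

@[fun_prop] protected theorem PT.uncons {l : α → List β} (hl : PT l) : PT (fun a => uncons (l a)) := by
  obtain ⟨g, hg, h⟩ := hl
  refine ⟨_, polyTime_ite (polyTime_comp polyTime_isEmpty hg) (polyTime_const [])
    (polyTime_comp (polyTime_cons true) hg), fun a => ?_⟩
  simp only [h]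
  cases l a with
  | nil => simp [enc_nil, enc_none]
  | cons b t =>
    have h1 : (enc (b :: t)).isEmpty = false := by
      rw [Bool.eq_false_iff]
      intro h0
      have h2 := congrArg List.length (List.isEmpty_iff.1 h0)
      rw [enc_cons, length_pairCode] at h2
      simp at h2
    rw [h1]
    simp only [List.head?_cons, Option.some.injEq, Bool.false_eq_true, if_false, uncons_cons,
      enc_some, enc_cons, enc_mk]

protected theorem PT.listCases {l : α → List β} {f : α → γ} {g : α → β → List β → γ} (hl : PT l)
    (hf : PT f) (hg : PT (fun p : α × β × List β => g p.1 p.2.1 p.2.2)) :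
    PT (fun a => match l a with
      | [] => f a
      | b :: t => g a b t) := by
  have h := PT.optCases (g := fun a (p : β × List β) => g a p.1 p.2) (PT.uncons hl) hf hg
  have e : (fun a => match l a with
      | [] => f a
      | b :: t => g a b t) = fun a => (uncons (l a)).elim (f a) (fun p => g a p.1 p.2) := by
    funext a
    cases l a <;> rfl
  rw [e]
  exact h

@[fun_prop] protected theorem PT.tail {l : α → List β} (hl : PT l) : PT (fun a => (l a).tail) := by
  have h := PT.listCases (f := fun _ => ([] : List β)) (g := fun _ _ t => t) hl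
    ⟨_, polyTime_const [], fun a => by simp only [enc_nil]⟩
    ⟨_, polyTime_comp polyTime_snd polyTime_snd, fun p => by
      simp only [enc_prod, sndCode_pairCode]⟩
  have e : (fun a => (l a).tail) = fun a => match l a with
      | [] => []
      | _ :: t => t := by
    funext a
    cases l a <;> rfl
  rw [e]
  exact h

@[fun_prop] protected theorem PT.head? {l : α → List β} (hl : PT l) : PT (fun a => (l a).head?) := by
  have h := PT.listCases (f := fun _ => (none : Option β)) (g := fun _ b _ => some b) hl
    ⟨_, polyTime_const [], fun a => by simp only [enc_none]⟩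
    ⟨_, polyTime_comp (polyTime_cons true) (polyTime_comp polyTime_fst polyTime_snd), fun p => by
      simp only [enc_prod, sndCode_pairCode, fstCode_pairCode, enc_some]⟩
  have e : (fun a => (l a).head?) = fun a => match l a with
      | [] => none
      | b :: _ => some b := by
    funext a
    cases l a <;> rfl
  rw [e]
  exact h

@[fun_prop] protected theorem PT.headD {l : α → List β} {d : α → β} (hl : PT l) (hd : PT d) :
    PT (fun a => (l a).headD (d a)) := by
  have h := PT.getD (PT.head? hl) hd
  have e : (fun a => (l a).headD (d a)) = fun a => ((l a).head?).getD (d a) := by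
    funext a
    cases l a <;> rfl
  rw [e]
  exact h

@[fun_prop] protected theorem PT.isEmpty {l : α → List β} (hl : PT l) : PT (fun a => (l a).isEmpty) := by
  obtain ⟨g, hg, h⟩ := hl
  refine ⟨_, polyTime_comp polyTime_isEmpty hg, fun a => ?_⟩
  simp only [h, enc_bool]
  cases l a with
  | nil => simp [enc_nil]
  | cons b t =>
    have h1 : (enc (b :: t)).isEmpty = false := by
      rw [Bool.eq_false_iff]
      intro h0
      have h2 := congrArg List.length (List.isEmpty_iff.1 h0)
      rw [enc_cons, length_pairCode] at h2
      simp at h2
    rw [h1]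
    rfl

end Crest.Agent.PolyT
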