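import Crest.Agent.Lib.PolyTime.Int
import Crest.Prelude.Def_BitEnc

/-! # PT_CODES: the codes of `Crest.Enc` (writing and reading) -/

set_option autoImplicit false

namespace Crest.Agent.PolyT

open Crest.Complexity PEnc

variable {α β : Type} [PEnc α] [PEnc β]

@[fun_prop] protected theorem PT.natCode {f : α → ℕ} (hf : PT f) :
    PT (fun a => Crest.Enc.natCode (f a)) := by
  unfold Crest.Enc.natCode
  refine PT.append (PT.flatten (PT.map (f := fun _ b => [true, b]) (PT.bits hf) ?_)) (PT.const _)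
  fun_prop

@[fun_prop] protected theorem PT.intCode {f : α → ℤ} (hf : PT f) :
    PT (fun a => Crest.Enc.intCode (f a)) := by
  unfold Crest.Enc.intCode
  exact PT.cons (PT.intNeg? hf) (PT.natCode (PT.natAbs hf))

/-- the rational code of an integer -/
@[fun_prop] protected theorem PT.ratCode_int {f : α → ℤ} (hf : PT f) :
    PT (fun a => Crest.Enc.ratCode ((f a : ℤ) : ℚ)) := by
  unfold Crest.Enc.ratCode
  simp only [Rat.num_intCast, Rat.den_intCast]
  exact PT.cons (PT.intNeg? hf) (PT.append (PT.natCode (PT.natAbs hf)) (PT.const _))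

/-- one step of the Euclidean algorithm -/
def gcdStep (p : ℕ × ℕ) : ℕ × ℕ := if p.2 = 0 then p else (p.2, p.1 % p.2)

theorem gcdStep_inv (p : ℕ × ℕ) : (gcdStep p).1.gcd (gcdStep p).2 = p.1.gcd p.2 := by
  unfold gcdStep
  split_ifs with h
  · rfl
  · show p.2.gcd (p.1 % p.2) = _
    rw [Nat.gcd_comm p.1 p.2, Nat.gcd_rec p.2 p.1, Nat.gcd_comm]

theorem gcdStep_iter_inv (p : ℕ × ℕ) (k : ℕ) :
    (gcdStep^[k] p).1.gcd (gcdStep^[k] p).2 = p.1.gcd p.2 := by
  induction k with
  | zero => rfl
  | succ k ih => rw [Function.iterate_succ_apply', gcdStep_inv, ih]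

theorem gcdStep_le (p : ℕ × ℕ) (B : ℕ) (h : p.1 ≤ B ∧ p.2 ≤ B) :
    (gcdStep p).1 ≤ B ∧ (gcdStep p).2 ≤ B := by
  unfold gcdStep
  split_ifs with h0
  · exact h
  · exact ⟨h.2, (Nat.mod_le _ _).trans h.1⟩

theorem gcdStep_iter_le (p : ℕ × ℕ) (B : ℕ) (h : p.1 ≤ B ∧ p.2 ≤ B) (k : ℕ) :
    (gcdStep^[k] p).1 ≤ B ∧ (gcdStep^[k] p).2 ≤ B := by
  induction k with
  | zero => exact h
  | succ k ih => rw [Function.iterate_succ_apply']; exact gcdStep_le _ _ ih

theorem gcdStep_two (p : ℕ × ℕ) (h : p.2 ≤ p.1) :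
    (gcdStep p).2 ≤ (gcdStep p).1 ∧ 2 * (gcdStep p).2 ≤ p.1 := by
  unfold gcdStep
  split_ifs with h0
  · exact ⟨h, by omega⟩
  · have h1 : p.1 % p.2 < p.2 := Nat.mod_lt _ (Nat.pos_of_ne_zero h0)
    have h2 : p.1 % p.2 + p.2 ≤ p.1 := by
      have h3 := Nat.div_add_mod p.1 p.2
      have h4 : 1 ≤ p.1 / p.2 := (Nat.one_le_div_iff (Nat.pos_of_ne_zero h0)).2 h
      have h5 : p.2 * 1 ≤ p.2 * (p.1 / p.2) := Nat.mul_le_mul_left _ h4
      omega
    exact ⟨h1.le, by show 2 * (p.1 % p.2) ≤ p.1; omega⟩

theorem gcdStep_pos {p : ℕ × ℕ} (h : p.2 = 0) : gcdStep p = p := by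
  unfold gcdStep; rw [if_pos h]

theorem gcdStep_neg {p : ℕ × ℕ} (h : ¬ p.2 = 0) : (gcdStep p).1 = p.2 := by
  unfold gcdStep; rw [if_neg h]

theorem gcdStep_done (k : ℕ) : ∀ p : ℕ × ℕ, p.2 ≤ p.1 → p.1 < 2 ^ k →
    (gcdStep^[2 * k + 1] p).2 = 0 := by
  have h00 : ∀ (p : ℕ × ℕ) (j : ℕ), p.2 = 0 → (gcdStep^[j] p).2 = 0 := by
    intro p j hp
    have h1 : gcdStep p = p := by unfold gcdStep; rw [if_pos hp]
    have : ∀ j, gcdStep^[j] p = p := by
      intro j
      induction j with
      | zero => rfl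
      | succ j ih => rw [Function.iterate_succ_apply, h1, ih]
    rw [this]; exact hp
  induction k with
  | zero =>
    intro p h1 h2
    apply h00
    simp at h2
    omega
  | succ k ih =>
    intro p h1 h2
    obtain ⟨a1, a2⟩ := gcdStep_two p h1
    by_cases h0 : p.2 = 0
    · exact h00 _ _ h0
    obtain ⟨b1, b2⟩ := gcdStep_two (gcdStep p) a1
    have e : gcdStep^[2 * (k + 1) + 1] p = gcdStep^[2 * k + 1] (gcdStep (gcdStep p)) := by
      rw [show 2 * (k + 1) + 1 = (2 * k + 1) + 1 + 1 by ring, Function.iterate_succ_apply,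
        Function.iterate_succ_apply]
    rw [e]
    by_cases h3 : (gcdStep p).2 = 0
    · have : gcdStep (gcdStep p) = gcdStep p := gcdStep_pos h3
      rw [this]
      exact h00 _ _ h3
    · apply ih _ b1
      have : (gcdStep (gcdStep p)).1 = (gcdStep p).2 := gcdStep_neg h3
      rw [this]
      rw [pow_succ] at h2
      omega

theorem gcd_eq_iter (m n : ℕ) :
    m.gcd n = (gcdStep^[2 * (m.size + n.size) + 2] (m, n)).1 := by
  have h0 : (gcdStep^[2 * (m.size + n.size) + 2] (m, n)).2 = 0 := by
    have hm : m < 2 ^ (m.size + n.size) :=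
      (Nat.lt_size_self m).trans_le (Nat.pow_le_pow_right (by norm_num) (by omega))
    have hn : n < 2 ^ (m.size + n.size) :=
      (Nat.lt_size_self n).trans_le (Nat.pow_le_pow_right (by norm_num) (by omega))
    rw [show 2 * (m.size + n.size) + 2 = (2 * (m.size + n.size) + 1) + 1 by ring,
      Function.iterate_succ_apply]
    apply gcdStep_done
    · unfold gcdStep
      split_ifs with h
      · show n ≤ m
        have : n = 0 := h
        omega
      · exact (Nat.mod_lt _ (Nat.pos_of_ne_zero h)).le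
    · exact lt_of_le_of_lt (gcdStep_le (m, n) (max m n) ⟨le_max_left _ _, le_max_right _ _⟩).1
        (max_lt hm hn)
  have h1 := gcdStep_iter_inv (m, n) (2 * (m.size + n.size) + 2)
  rw [h0, Nat.gcd_zero_right] at h1
  exact h1.symm

@[fun_prop] protected theorem PT.natGcd {f g : α → ℕ} (hf : PT f) (hg : PT g) :
    PT (fun a => (f a).gcd (g a)) := by
  simp only [gcd_eq_iter]
  refine PT.fst (PT.iterate (n := fun a => 2 * ((f a).size + (g a).size) + 2)
    (z := fun a => (f a, g a)) (s := fun _ => gcdStep) ?_ ?_ (PT.pair hf hg) ?_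
    (fun a => 3 * (sz (f a) + sz (g a)) + 1) ?_ ?_)
  · exact PT.natAdd (PT.natMul (PT.const 2) (PT.natAdd (PT.natSize hf) (PT.natSize hg)))
      (PT.const 2)
  · exact PB.add (PB.mul (PB.const 2) (PB.add (PB.size hf) (PB.size hg))) (PB.const 2)
  · unfold gcdStep
    fun_prop
  · exact PB.add (PB.mul (PB.const 3) (PB.add (PT.pb_sz hf) (PT.pb_sz hg))) (PB.const 1)
  · intro a i _
    obtain ⟨h1, h2⟩ := gcdStep_iter_le (f a, g a) (max (f a) (g a))
      ⟨le_max_left _ _, le_max_right _ _⟩ i
    have h3 := sz_nat_mono h1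
    have h4 := sz_nat_mono h2
    have h5 : sz (max (f a) (g a)) ≤ sz (f a) + sz (g a) := by
      rcases max_choice (f a) (g a) with h | h <;> rw [h] <;> omega
    rw [sz_prod]
    omega

theorem rat_num_div (z : ℤ) (n : ℕ) (hn : n ≠ 0) :
    ((z : ℚ) / (n : ℚ)).num.natAbs = z.natAbs / z.natAbs.gcd n ∧
      ((z : ℚ) / (n : ℚ)).den = n / z.natAbs.gcd n ∧
      (((z : ℚ) / (n : ℚ)).num < 0 ↔ z < 0) := by
  have hn' : (0 : ℤ) < n := by exact_mod_cast Nat.pos_of_ne_zero hn
  have e : (z : ℚ) / (n : ℚ) = mkRat z n := by rw [Rat.mkRat_eq_div]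
  have hq : (0 : ℚ) < n := by exact_mod_cast Nat.pos_of_ne_zero hn
  refine ⟨?_, ?_, ?_⟩
  · rw [e, Rat.num_mkRat, if_neg hn, Int.natAbs_ediv_of_dvd]
    · simp [Nat.gcd_comm]
    · rw [Int.natCast_dvd]
      exact Nat.gcd_dvd_right _ _
  · rw [e, Rat.den_mkRat, if_neg hn, Nat.gcd_comm]
  · rw [Rat.num_neg, div_neg_iff]
    constructor
    · rintro (h | h)
      · exact absurd h.2 (not_lt.2 hq.le)
      · exact_mod_cast h.1
    · intro h
      exact Or.inr ⟨by exact_mod_cast h, hq⟩

/-- the rational code of a fraction (uses gcd) -/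
protected theorem PT.ratCode_div {f : α → ℤ} {g : α → ℕ} (hf : PT f) (hg : PT g)
    (h0 : ∀ a, g a ≠ 0) : PT (fun a => Crest.Enc.ratCode ((f a : ℚ) / (g a : ℚ))) := by
  have e : (fun a => Crest.Enc.ratCode ((f a : ℚ) / (g a : ℚ))) = fun a =>
      decide (f a < 0) :: (Crest.Enc.natCode ((f a).natAbs / (f a).natAbs.gcd (g a)) ++
        Crest.Enc.natCode (g a / (f a).natAbs.gcd (g a))) := by
    funext a
    obtain ⟨h1, h2, h3⟩ := rat_num_div (f a) (g a) (h0 a)
    unfold Crest.Enc.ratCode
    rw [h1, h2, decide_eq_decide.2 h3]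
  rw [e]
  have hgcd : PT (fun a => (f a).natAbs.gcd (g a)) := PT.natGcd (PT.natAbs hf) hg
  exact PT.cons (PT.intNeg? hf) (PT.append (PT.natCode (PT.natDiv (PT.natAbs hf) hgcd))
    (PT.natCode (PT.natDiv hg hgcd)))

/-- reads a `natCode` at the beginning of a string, returns the number and the rest -/
def readNat : List Bool → ℕ × List Bool
  | true :: b :: w => (b.toNat + 2 * (readNat w).1, (readNat w).2)
  | false :: _ :: w => (0, w)
  | _ => (0, [])

theorem readNat_natCode (n : ℕ) (w : List Bool) : readNat (Crest.Enc.natCode n ++ w) = (n, w) := by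
  unfold Crest.Enc.natCode
  have key : ∀ l : List Bool,
      readNat ((l.map fun b => [true, b]).flatten ++ [false, false] ++ w) = (ofBits l, w) := by
    intro l
    induction l with
    | nil => rfl
    | cons b l ih =>
      have h1 : ((b :: l).map fun b => [true, b]).flatten ++ [false, false] ++ w =
          true :: b :: ((l.map fun b => [true, b]).flatten ++ [false, false] ++ w) := by
        simp
      rw [h1, readNat, ih]
      rfl
  rw [key, ofBits_bits]

theorem readNat_eq : ∀ w : List Bool, readNat w = (ofBits (fstCode w), (sndCode w).tail)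
  | [] => rfl
  | [true] => rfl
  | [false] => rfl
  | true :: b :: w => by
    rw [readNat, readNat_eq w]
    rfl
  | false :: _ :: w => rfl

@[fun_prop] protected theorem PT.readNat {f : α → List Bool} (hf : PT f) :
    PT (fun a => readNat (f a)) := by
  simp only [readNat_eq]
  have h1 : PT (fun a => fstCode (f a)) := PT.comp (PT.of_raw polyTime_fst) hf
  have h2 : PT (fun a => sndCode (f a)) := PT.comp (PT.of_raw polyTime_snd) hf
  exact PT.pair (PT.ofBits h1) (PT.tail h2)

/-- reads a block of `true` at the beginning of a string (a unary number), followed by one `false` -/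
def readUnary (w : List Bool) : ℕ × List Bool :=
  ((w.takeWhile fun b => b).length, (w.dropWhile fun b => b).tail)

theorem readUnary_replicate (n : ℕ) (w : List Bool) :
    readUnary (List.replicate n true ++ false :: w) = (n, w) := by
  unfold readUnary
  have h1 : (List.replicate n true ++ false :: w).takeWhile (fun b => b) =
      List.replicate n true := by
    induction n with
    | zero => rfl
    | succ n ih => rw [List.replicate_succ, List.cons_append, List.takeWhile_cons, if_pos rfl, ih]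
  have h2 : (List.replicate n true ++ false :: w).dropWhile (fun b => b) = false :: w := by
    clear h1
    induction n with
    | zero => rfl
    | succ n ih => rw [List.replicate_succ, List.cons_append, List.dropWhile_cons, if_pos rfl, ih]
  rw [h1, h2, List.length_replicate]
  rfl

@[fun_prop] protected theorem PT.readUnary {f : α → List Bool} (hf : PT f) :
    PT (fun a => readUnary (f a)) := by
  unfold readUnary
  exact PT.pair (PT.length (PT.takeWhile (f := fun _ b => b) hf (by fun_prop)))
    (PT.tail (PT.dropWhile (f := fun _ b => b) hf (by fun_prop)))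

theorem PB.readUnary_fst {f : α → List Bool} (hf : PT f) : PB (fun a => (readUnary (f a)).1) := by
  refine PB.of_le (PT.pb_length hf) (fun a => ?_)
  exact (List.takeWhile_prefix _).length_le

theorem PB.length_of_PT {f : α → List Bool} (hf : PT f) : PB (fun a => (f a).length) := by
  exact PT.pb_length hf

end Crest.Agent.PolyT
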