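import Crest.Agent.Lib.PolyTime.Core

/-!
# Polynomial time toolkit, level 2: encoded types, `PT f` and `PB f` (definitions and size lemmas)

* `PEnc α`: an injective code `enc : α → List Bool`. Instances: `Unit, Bool, ℕ` (binary), `Un` (unary
  numbers), `ℤ`, `Fin n`, products, `Option`, `List`.
* `sz a`: the length of the code of `a`.
* `PT (f : α → β)`: `f` is polynomial time on codes.
* `PB (f : α → ℕ)`: `f a` is at most a polynomial in `sz a` (needed for loop lengths).
For `f : List Bool → List Bool`, `PT f` implies `Crest.Complexity.PolyTime f`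
(`PT.polyTime` in `Raw.lean`).
-/

set_option autoImplicit false

namespace Crest.Agent.PolyT

open Crest.Complexity

/-- a type whose elements are coded by bit strings -/
class PEnc (α : Type) where
  enc : α → List Bool
  enc_inj : Function.Injective enc

open PEnc

/-- the size of (the code of) an element -/
def sz {α : Type} [PEnc α] (a : α) : ℕ := (enc a).length

/-- value of a list of binary digits, least significant first -/
def ofBits : List Bool → ℕ
  | [] => 0
  | b :: l => b.toNat + 2 * ofBits l

@[simp] theorem ofBits_nil : ofBits [] = 0 := rfl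

@[simp] theorem ofBits_cons (b : Bool) (l : List Bool) :
    ofBits (b :: l) = b.toNat + 2 * ofBits l := rfl

@[simp] theorem ofBits_bits (n : ℕ) : ofBits n.bits = n := by
  induction n using Nat.binaryRec' with
  | zero => simp
  | bit b n h ih =>
    rw [Nat.bits_append_bit _ _ h, ofBits_cons, ih, Nat.bit_val]
    cases b <;> simp [add_comm]

theorem bits_injective : Function.Injective Nat.bits := fun a b h => by
  have := congrArg ofBits h
  simpa using this

instance : PEnc Unit := ⟨fun _ => [], fun _ _ _ => rfl⟩

instance : PEnc Bool := ⟨fun b => [b], fun _ _ h => by simpa using h⟩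

instance : PEnc ℕ := ⟨fun n => n.bits, bits_injective⟩

theorem enc_int_inj : Function.Injective (fun z : ℤ => decide (z < 0) :: z.natAbs.bits) := by
  intro a b h
  simp only [List.cons.injEq, decide_eq_decide] at h
  obtain ⟨h1, h2⟩ := h
  have h3 := bits_injective h2
  omega

instance : PEnc ℤ := ⟨fun z => decide (z < 0) :: z.natAbs.bits, enc_int_inj⟩

/-- unary numbers: the code of `⟨n⟩` is `1^n`.  Use this type for loop variables. -/
@[ext] structure Un where
  val : ℕ

instance : PEnc Un := ⟨fun u => List.replicate u.val true, fun a b h => by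
  have := congrArg List.length h
  ext
  simpa using this⟩

instance {n : ℕ} : PEnc (Fin n) := ⟨fun i => enc i.val, fun _ _ h => Fin.ext (enc_inj h)⟩

instance {α β : Type} [PEnc α] [PEnc β] : PEnc (α × β) :=
  ⟨fun p => pairCode (enc p.1) (enc p.2), fun _ _ h =>
    Prod.ext (enc_inj (pairCode_inj h).1) (enc_inj (pairCode_inj h).2)⟩

/-- code of an option -/
def optEnc {α : Type} [PEnc α] : Option α → List Bool
  | none => []
  | some a => true :: enc a

theorem optEnc_inj {α : Type} [PEnc α] : Function.Injective (optEnc (α := α)) := by
  intro a b h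
  cases a <;> cases b <;> simp [optEnc] at h ⊢
  exact enc_inj h

instance {α : Type} [PEnc α] : PEnc (Option α) := ⟨optEnc, optEnc_inj⟩

/-- code of a list -/
def listEnc {α : Type} [PEnc α] : List α → List Bool
  | [] => []
  | a :: l => pairCode (enc a) (listEnc l)

theorem listEnc_inj {α : Type} [PEnc α] : Function.Injective (listEnc (α := α)) := by
  intro l
  induction l with
  | nil =>
    intro l' h
    cases l' with
    | nil => rfl
    | cons a l' =>
      have := congrArg List.length h
      simp [listEnc] at this
      omega
  | cons a l ih =>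
    intro l' h
    cases l' with
    | nil =>
      have := congrArg List.length h
      simp [listEnc] at this
    | cons a' l' =>
      obtain ⟨h1, h2⟩ := pairCode_inj
        (show pairCode (enc a) (listEnc l) = pairCode (enc a') (listEnc l') from h)
      rw [enc_inj h1, ih h2]

instance {α : Type} [PEnc α] : PEnc (List α) := ⟨listEnc, listEnc_inj⟩

section codes

variable {α β : Type} [PEnc α] [PEnc β]

theorem enc_unit (a : Unit) : enc a = [] := rfl
theorem enc_bool (b : Bool) : enc b = [b] := rfl
theorem enc_nat (n : ℕ) : enc n = n.bits := rfl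
theorem enc_int (z : ℤ) : enc z = decide (z < 0) :: enc z.natAbs := rfl
theorem enc_un (u : Un) : enc u = List.replicate u.val true := rfl
theorem enc_fin {n : ℕ} (i : Fin n) : enc i = enc i.val := rfl
theorem enc_prod (p : α × β) : enc p = pairCode (enc p.1) (enc p.2) := rfl
theorem enc_mk (a : α) (b : β) : enc (a, b) = pairCode (enc a) (enc b) := rfl
theorem enc_none : enc (none : Option α) = [] := rfl
theorem enc_some (a : α) : enc (some a) = true :: enc a := rfl
theorem enc_nil : enc ([] : List α) = [] := rfl
theorem enc_cons (a : α) (l : List α) : enc (a :: l) = pairCode (enc a) (enc l) := rfl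

@[simp] theorem sz_unit (a : Unit) : sz a = 0 := rfl
@[simp] theorem sz_bool (b : Bool) : sz b = 1 := rfl
theorem sz_nat (n : ℕ) : sz n = n.size := Nat.size_eq_bits_len n
theorem sz_int (z : ℤ) : sz z = sz z.natAbs + 1 := rfl
@[simp] theorem sz_un (u : Un) : sz u = u.val := by simp [sz, enc_un]
theorem sz_fin {n : ℕ} (i : Fin n) : sz i = sz i.val := rfl
@[simp] theorem sz_mk (a : α) (b : β) : sz (a, b) = 2 * sz a + 1 + sz b := by
  simp [sz, enc_mk]
theorem sz_prod (p : α × β) : sz p = 2 * sz p.1 + 1 + sz p.2 := by
  simp [sz, enc_prod]
@[simp] theorem sz_none : sz (none : Option α) = 0 := rfl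
@[simp] theorem sz_some (a : α) : sz (some a) = sz a + 1 := rfl
@[simp] theorem sz_nil : sz ([] : List α) = 0 := rfl
@[simp] theorem sz_cons (a : α) (l : List α) : sz (a :: l) = 2 * sz a + 1 + sz l := by
  simp [sz, enc_cons]

theorem sz_list (l : List α) : sz l = (l.map fun a => 2 * sz a + 1).sum := by
  induction l with
  | nil => rfl
  | cons a l ih => simp [ih]

theorem length_le_sz (l : List α) : l.length ≤ sz l := by
  induction l with
  | nil => simp
  | cons a l ih => simp; omega

theorem sz_le_of_mem {l : List α} {a : α} (h : a ∈ l) : sz a ≤ sz l := by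
  induction l with
  | nil => simp at h
  | cons b l ih =>
    rcases List.mem_cons.1 h with h | h
    · subst h; simp; omega
    · have := ih h; simp; omega

theorem sz_append (l l' : List α) : sz (l ++ l') = sz l + sz l' := by
  simp [sz_list]

theorem sz_nat_le (n : ℕ) : sz n ≤ n := by
  rw [sz_nat, Nat.size_le]; exact Nat.lt_two_pow_self

theorem sz_nat_le_iff {n k : ℕ} : sz n ≤ k ↔ n < 2 ^ k := by
  rw [sz_nat, Nat.size_le]

theorem lt_two_pow_sz (n : ℕ) : n < 2 ^ sz n := by
  rw [sz_nat]; exact Nat.lt_size_self n

theorem sz_nat_mono {m n : ℕ} (h : m ≤ n) : sz m ≤ sz n := by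
  rw [sz_nat, sz_nat]; exact Nat.size_le_size h

end codes

/-- `f` is computable in polynomial time on codes -/
@[fun_prop]
def PT {α β : Type} [PEnc α] [PEnc β] (f : α → β) : Prop :=
  ∃ g : List Bool → List Bool, PolyTime g ∧ ∀ a, g (enc a) = enc (f a)

/-- the values of `f` are bounded by a polynomial in the size of the argument -/
def PB {α : Type} [PEnc α] (f : α → ℕ) : Prop :=
  ∃ p : Polynomial ℕ, ∀ a, f a ≤ p.eval (sz a)

end Crest.Agent.PolyT
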