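import Crest.Agent.Lib.PolyTime.Basic
import Crest.Agent.Lib.PolyTime.ProgLib
import Crest.Agent.Lib.PolyTime.CoreTake

/-! # PT_RAW: raw strings versus codes of lists of bits

`enc (x : List Bool)` has the block `true, b, false` for every bit `b` of `x`.
Both conversions by a program (`polyTime_of_run`): e.g. move the input to t (reversed), then
`loop t isSome (pop t; push a false; push a b; push a true)`; backwards: `loop a isSome (pop a; move1 a t; pop a)`. -/

set_option autoImplicit false

namespace Crest.Agent.PolyT

open Crest.Complexity PEnc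

variable {α β : Type} [PEnc α] [PEnc β]

namespace Rawaux

/-- a store with two stacks -/
def st (a b : List Bool) : Fin 2 → List Bool := ![a, b]

theorem st_zero (a b : List Bool) : st a b 0 = a := rfl
theorem st_one (a b : List Bool) : st a b 1 = b := rfl

theorem upd_zero (a b d : List Bool) : Function.update (st a b) 0 d = st d b := by
  funext k
  fin_cases k <;> simp [st, Function.update]

theorem upd_one (a b d : List Bool) : Function.update (st a b) 1 d = st a d := by
  funext k
  fin_cases k <;> simp [st, Function.update]

theorem single_zero (a : List Bool) : single (0 : Fin 2) a = st a [] := by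
  funext k
  fin_cases k <;> simp [st, single, Function.update]

/-- the code of a list of bits -/
def toL : List Bool → List Bool
  | [] => []
  | b :: l => true :: b :: false :: toL l

theorem enc_eq_toL (x : List Bool) : (enc x : List Bool) = toL x := by
  induction x with
  | nil => rfl
  | cons b x ih =>
    rw [enc_cons, toL, ih]
    rfl

theorem length_toL (x : List Bool) : (toL x).length = 3 * x.length := by
  induction x with
  | nil => rfl
  | cons b x ih => simp only [toL, List.length_cons, ih]; ring

theorem toL_append (x y : List Bool) : toL (x ++ y) = toL x ++ toL y := by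
  induction x with
  | nil => rfl
  | cons b x ih => simp [toL, ih]

/-- one round -/
def body1 : Prog (Fin 2) Empty :=
  Prog.seq (Prog.push 0 false) (Prog.seq (Prog.move1 1 0) (Prog.push 0 true))

theorem run_body1 {F : Empty → List Bool → List Bool} {T : Empty → Polynomial ℕ}
    (a : List Bool) (b : Bool) (w : List Bool) :
    Run F T body1 (st a (b :: w)) 5 (st (true :: b :: false :: a) w) := by
  have h1 := Run.push (F := F) (T := T) (0 : Fin 2) false (st a (b :: w))
  rw [upd_zero, st_zero] at h1
  have h2 := run_move1 (F := F) (T := T) (a := (1 : Fin 2)) (t := 0) (by decide)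
    (st (false :: a) (b :: w)) b w rfl
  rw [upd_one, upd_zero, st_zero] at h2
  have h3 := Run.push (F := F) (T := T) (0 : Fin 2) true (st (b :: false :: a) w)
  rw [upd_zero, st_zero] at h3
  exact Run.seq h1 (Run.seq h2 h3)

theorem run_loop1 {F : Empty → List Bool → List Bool} {T : Empty → Polynomial ℕ} :
    ∀ (r a : List Bool), Run F T (Prog.loop 1 Option.isSome body1) (st a r) (6 * r.length + 1)
      (st (toL r.reverse ++ a) [])
  | [], a => Run.loop_done rfl
  | b :: r, a => by
    have h := run_loop1 (F := F) (T := T) r (true :: b :: false :: a)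
    have h2 := Run.loop_step (F := F) (T := T) (k := (1 : Fin 2)) (c := Option.isSome)
      (S := st a (b :: r)) rfl (run_body1 a b r) h
    refine run_of_eq (Run.mono h2 ?_) ?_
    · simp only [List.length_cons]; omega
    · rw [List.reverse_cons, toL_append]
      simp [toL]

/-- decoding -/
def ofL : List Bool → List Bool
  | [] => []
  | [_] => [false]
  | [_, b] => [b]
  | _ :: b :: _ :: w => b :: ofL w

theorem ofL_toL (x : List Bool) : ofL (toL x) = x := by
  induction x with
  | nil => rfl
  | cons b x ih => rw [toL, ofL, ih]

/-- one round -/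
def body2 : Prog (Fin 2) Empty :=
  Prog.seq (Prog.pop 0) (Prog.seq (Prog.move1 0 1) (Prog.pop 0))

theorem run_move1_nil {F : Empty → List Bool → List Bool} {T : Empty → Polynomial ℕ}
    (w : List Bool) : Run F T (Prog.move1 0 1 : Prog (Fin 2) Empty) (st [] w) 3 (st [] (false :: w)) := by
  have h1 := Run.pop (F := F) (T := T) (0 : Fin 2) (st [] w)
  rw [upd_zero, st_zero, List.tail_nil] at h1
  have h2 := Run.push (F := F) (T := T) (1 : Fin 2) false (st [] w)
  rw [upd_one, st_one] at h2
  exact Run.ite_false (by simp [st_zero]) (Run.seq h1 h2)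

theorem run_body2 {F : Empty → List Bool → List Bool} {T : Empty → Polynomial ℕ}
    (c b : Bool) (v w : List Bool) :
    Run F T body2 (st (c :: b :: v) w) 5 (st v.tail (b :: w)) := by
  have h1 := Run.pop (F := F) (T := T) (0 : Fin 2) (st (c :: b :: v) w)
  rw [upd_zero, st_zero, List.tail_cons] at h1
  have h2 := run_move1 (F := F) (T := T) (a := (0 : Fin 2)) (t := 1) (by decide)
    (st (b :: v) w) b v rfl
  rw [upd_zero, upd_one, st_one] at h2
  have h3 := Run.pop (F := F) (T := T) (0 : Fin 2) (st v (b :: w))
  rw [upd_zero, st_zero] at h3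
  exact Run.seq h1 (Run.seq h2 h3)

theorem run_body2' {F : Empty → List Bool → List Bool} {T : Empty → Polynomial ℕ}
    (c : Bool) (w : List Bool) :
    Run F T body2 (st [c] w) 5 (st [] (false :: w)) := by
  have h1 := Run.pop (F := F) (T := T) (0 : Fin 2) (st [c] w)
  rw [upd_zero, st_zero, List.tail_cons] at h1
  have h3 := Run.pop (F := F) (T := T) (0 : Fin 2) (st [] (false :: w))
  rw [upd_zero, st_zero, List.tail_nil] at h3
  exact Run.seq h1 (Run.seq (run_move1_nil w) h3)

theorem run_loop2 {F : Empty → List Bool → List Bool} {T : Empty → Polynomial ℕ} :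
    ∀ (x w : List Bool), Run F T (Prog.loop 0 Option.isSome body2) (st x w) (6 * x.length + 1)
      (st [] ((ofL x).reverse ++ w))
  | [], w => Run.loop_done rfl
  | [c], w => by
    have h2 := Run.loop_step (F := F) (T := T) (k := (0 : Fin 2)) (c := Option.isSome)
      (S := st [c] w) rfl (run_body2' c w) (run_loop2 (F := F) (T := T) [] (false :: w))
    exact run_of_eq (Run.mono h2 (by simp)) (by simp [ofL])
  | [c, b], w => by
    have h2 := Run.loop_step (F := F) (T := T) (k := (0 : Fin 2)) (c := Option.isSome)
      (S := st [c, b] w) rfl (run_body2 c b [] w) (run_loop2 (F := F) (T := T) [] (b :: w))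
    exact run_of_eq (Run.mono h2 (by simp)) (by simp [ofL])
  | c :: b :: d :: v, w => by
    have h2 := Run.loop_step (F := F) (T := T) (k := (0 : Fin 2)) (c := Option.isSome)
      (S := st (c :: b :: d :: v) w) rfl (run_body2 c b (d :: v) w)
      (run_loop2 (F := F) (T := T) v (b :: w))
    exact run_of_eq (Run.mono h2 (by simp only [List.length_cons]; omega)) (by simp [ofL])

theorem length_ofL_le : ∀ x : List Bool, (ofL x).length ≤ x.length
  | [] => le_rfl
  | [_] => by simp [ofL]
  | [_, b] => by simp [ofL]
  | _ :: b :: _ :: w => by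
    have := length_ofL_le w
    simp only [ofL, List.length_cons]; omega

theorem polyTime_toL : PolyTime toL := by
  refine polyTime_of_run (K := Fin 2) (ι := Empty) (fun e => e.elim) (fun e => e.elim)
    (Prog.seq (Prog.move 0 1) (Prog.loop 1 Option.isSome body1)) 0 0 _ ?_
  intro T
  refine ⟨10 * Polynomial.X + 2, fun x => ?_⟩
  have r := run_move (F := fun e : Empty => e.elim) (T := T) (a := (0 : Fin 2))
    (t := (1 : Fin 2)) (by decide) (st x [])
  rw [upd_zero, upd_one, st_zero, st_one, List.append_nil] at r
  have r2 := run_loop1 (F := fun e : Empty => e.elim) (T := T) x.reverse []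
  rw [List.reverse_reverse, List.append_nil] at r2
  rw [single_zero, single_zero]
  refine Run.mono (Run.seq r r2) ?_
  simp only [Polynomial.eval_add, Polynomial.eval_mul, Polynomial.eval_X,
    Polynomial.eval_ofNat, List.length_reverse]
  omega

theorem polyTime_ofL : PolyTime ofL := by
  refine polyTime_of_run (K := Fin 2) (ι := Empty) (fun e => e.elim) (fun e => e.elim)
    (Prog.seq (Prog.loop 0 Option.isSome body2) (Prog.move 1 0)) 0 0 _ ?_
  intro T
  refine ⟨10 * Polynomial.X + 2, fun x => ?_⟩
  have r := run_loop2 (F := fun e : Empty => e.elim) (T := T) x []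
  rw [List.append_nil] at r
  have r2 := run_move (F := fun e : Empty => e.elim) (T := T) (a := (1 : Fin 2))
    (t := (0 : Fin 2)) (by decide) (st [] (ofL x).reverse)
  rw [upd_one, upd_zero, st_zero, st_one, List.append_nil, List.reverse_reverse] at r2
  rw [single_zero, single_zero]
  refine Run.mono (Run.seq r r2) ?_
  have := length_ofL_le x
  simp only [Polynomial.eval_add, Polynomial.eval_mul, Polynomial.eval_X,
    Polynomial.eval_ofNat, List.length_reverse]
  omega

end Rawaux

theorem polyTime_toList : PolyTime (fun x => (enc x : List Bool)) := by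
  have : (fun x : List Bool => (enc x : List Bool)) = Rawaux.toL := funext Rawaux.enc_eq_toL
  rw [this]
  exact Rawaux.polyTime_toL

theorem polyTime_ofList : ∃ g, PolyTime g ∧ ∀ x : List Bool, g (enc x) = x := by
  refine ⟨Rawaux.ofL, Rawaux.polyTime_ofL, fun x => ?_⟩
  rw [Rawaux.enc_eq_toL, Rawaux.ofL_toL]

/-- **The exit of the toolkit.** -/
protected theorem PT.polyTime {f : List Bool → List Bool} (hf : PT f) : PolyTime f := by
  obtain ⟨g, hg, h⟩ := hf
  obtain ⟨g', hg', h'⟩ := polyTime_ofList
  have h1 := polyTime_comp hg' (polyTime_comp hg polyTime_toList)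
  convert h1 using 2 with x
  rw [h, h']

protected theorem PT.polyTimePred {f : List Bool → Bool} (hf : PT f) : PolyTimePred f := by
  obtain ⟨g, hg, h⟩ := hf
  have h1 := polyTime_comp hg polyTime_toList
  have h2 : (fun x : List Bool => g (enc x)) = fun x => [f x] := by
    funext x
    rw [h]
    rfl
  rw [h2] at h1
  obtain ⟨M⟩ := h1
  exact ⟨⟨M.toTM2ComputableAux, M.time, fun a => M.outputsFun a⟩⟩

/-- the code of an element, as a list of bits -/
@[fun_prop] protected theorem PT.enc {f : α → β} (hf : PT f) : PT (fun a => (PEnc.enc (f a) : List Bool)) := by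
  obtain ⟨g, hg, h⟩ := hf
  exact ⟨_, polyTime_comp polyTime_toList hg, fun a => by rw [h]⟩

/-- a function whose codes are computed by a `PT` function with values in `List Bool` -/
protected theorem PT.of_enc {f : α → β} (hf : PT (fun a => (PEnc.enc (f a) : List Bool))) : PT f := by
  obtain ⟨g, hg, h⟩ := hf
  obtain ⟨g', hg', h'⟩ := polyTime_ofList
  exact ⟨_, polyTime_comp hg' hg, fun a => by rw [h, h']⟩

/-- a raw polynomial time function is `PT` on `List Bool` -/
protected theorem PT.of_raw {f : List Bool → List Bool} (hf : PolyTime f) : PT f := by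
  obtain ⟨g', hg', h'⟩ := polyTime_ofList
  exact ⟨_, polyTime_comp polyTime_toList (polyTime_comp hf hg'), fun a => by rw [h']⟩

@[fun_prop] protected theorem PT.bits {f : α → ℕ} (hf : PT f) : PT (fun a => (f a).bits) :=
  PT.enc hf

end Crest.Agent.PolyT
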