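import Crest.Agent.Lib.PolyTime.Fold
import Crest.Agent.Lib.PolyTime.Raw

/-! # PT_LISTS1: reverse, append, map, flatMap, filter, flatten, takeWhile, dropWhile

reverse: foldl with cons (`PT.foldl_inv` or `PT.foldl`, bound `sz (l a)`);
append: foldl cons on the reversed list; map: foldl with `f a x :: acc` then reverse
(size bound: `PT.sz_le` for `f` and `sz_le_of_mem`); flatMap: foldl with `acc ++ f a x`;
filter: flatMap; takeWhile/dropWhile: foldl with a Boolean flag (acc reversed). -/

set_option autoImplicit false

namespace Crest.Agent.PolyT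

open Crest.Complexity PEnc

variable {α β γ δ : Type} [PEnc α] [PEnc β] [PEnc γ] [PEnc δ]

omit [PEnc α] [PEnc β] [PEnc γ] [PEnc δ] in
private theorem l1_foldl_cons (l acc : List β) :
    l.foldl (fun acc x => x :: acc) acc = l.reverse ++ acc := by
  induction l generalizing acc with
  | nil => rfl
  | cons b l ih => rw [List.foldl_cons, ih, List.reverse_cons, List.append_assoc]; rfl

private theorem l1_bound {l : α → List β} {f : α → β → γ} (hl : PT l)
    (hf : PT (fun p : α × β => f p.1 p.2)) :
    ∃ d : α → ℕ, PB d ∧ ∀ a x, x ∈ l a → sz (f a x) ≤ d a := by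
  obtain ⟨p, hp⟩ := hf.sz_le
  refine ⟨fun a => p.eval (2 * sz a + 1 + sz (l a)), ?_, ?_⟩
  · exact PB.eval ((((PB.const 2).mul (PT.pb_sz PT.id)).add (PB.const 1)).add (PT.pb_sz hl)) p
  · intro a x hx
    refine (hp (a, x)).trans (poly_eval_mono p ?_)
    rw [sz_mk]
    have := sz_le_of_mem hx
    omega

private theorem l1_foldcons {l l' : α → List β} (hl : PT l) (hl' : PT l') :
    PT (fun a => (l a).foldl (fun acc x => x :: acc) (l' a)) := by
  refine PT.foldl_add (s := fun _ acc x => x :: acc) hl hl'
    (PT.cons (PT.snd (PT.snd PT.id)) (PT.fst (PT.snd PT.id)))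
    (fun a => 2 * sz (l a) + 1) (((PB.const 2).mul (PT.pb_sz hl)).add (PB.const 1)) ?_
  intro a c x hx
  have := sz_le_of_mem hx
  simp only [sz_cons]
  omega

@[fun_prop] protected theorem PT.reverse {l : α → List β} (hl : PT l) : PT (fun a => (l a).reverse) := by
  have h := l1_foldcons hl (PT.const ([] : List β))
  have e : (fun a => (l a).reverse) = fun a => (l a).foldl (fun acc x => x :: acc) [] := by
    funext a
    rw [l1_foldl_cons, List.append_nil]
  rw [e]
  exact h

@[fun_prop] protected theorem PT.append {l l' : α → List β} (hl : PT l) (hl' : PT l') :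
    PT (fun a => l a ++ l' a) := by
  have h := l1_foldcons (PT.reverse hl) hl'
  have e : (fun a => l a ++ l' a) =
      fun a => ((l a).reverse).foldl (fun acc x => x :: acc) (l' a) := by
    funext a
    rw [l1_foldl_cons, List.reverse_reverse]
  rw [e]
  exact h

omit [PEnc α] [PEnc β] [PEnc γ] [PEnc δ] in
private theorem l1_foldl_map (f : β → γ) (l : List β) (acc : List γ) :
    l.foldl (fun acc x => f x :: acc) acc = (l.map f).reverse ++ acc := by
  induction l generalizing acc with
  | nil => rfl
  | cons b l ih =>
    rw [List.foldl_cons, ih, List.map_cons, List.reverse_cons, List.append_assoc]; rfl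

@[fun_prop] protected theorem PT.map {l : α → List β} {f : α → β → γ} (hl : PT l)
    (hf : PT (fun p : α × β => f p.1 p.2)) : PT (fun a => (l a).map (f a)) := by
  obtain ⟨d, hd, hdb⟩ := l1_bound hl hf
  have h1 : PT (fun q : α × List γ × β => f q.1 q.2.2) :=
    PT.comp (f := fun q : α × List γ × β => (q.1, q.2.2)) hf
      (PT.pair (PT.fst PT.id) (PT.snd (PT.snd PT.id)))
  have h := PT.foldl_add (s := fun a (acc : List γ) x => f a x :: acc) hl
    (PT.const ([] : List γ)) (PT.cons h1 (PT.fst (PT.snd PT.id)))
    (fun a => 2 * d a + 1) (((PB.const 2).mul hd).add (PB.const 1)) (by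
      intro a c x hx
      have := hdb a x hx
      simp only [sz_cons]
      omega)
  have e : (fun a => (l a).map (f a)) =
      fun a => ((l a).foldl (fun (acc : List γ) x => f a x :: acc) []).reverse := by
    funext a
    rw [l1_foldl_map, List.append_nil, List.reverse_reverse]
  rw [e]
  exact PT.reverse h

omit [PEnc α] [PEnc β] [PEnc γ] [PEnc δ] in
private theorem l1_foldl_flatMap (f : β → List γ) (l : List β) (acc : List γ) :
    l.foldl (fun acc x => acc ++ f x) acc = acc ++ l.flatMap f := by
  induction l generalizing acc with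
  | nil => simp
  | cons b l ih => rw [List.foldl_cons, ih, List.flatMap_cons, List.append_assoc]

@[fun_prop] protected theorem PT.flatMap {l : α → List β} {f : α → β → List γ} (hl : PT l)
    (hf : PT (fun p : α × β => f p.1 p.2)) : PT (fun a => (l a).flatMap (f a)) := by
  obtain ⟨d, hd, hdb⟩ := l1_bound hl hf
  have h1 : PT (fun q : α × List γ × β => f q.1 q.2.2) :=
    PT.comp (f := fun q : α × List γ × β => (q.1, q.2.2)) hf
      (PT.pair (PT.fst PT.id) (PT.snd (PT.snd PT.id)))
  have h := PT.foldl_add (s := fun a (acc : List γ) x => acc ++ f a x) hl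
    (PT.const ([] : List γ)) (PT.append (PT.fst (PT.snd PT.id)) h1) d hd (by
      intro a c x hx
      have := hdb a x hx
      rw [sz_append]
      omega)
  have e : (fun a => (l a).flatMap (f a)) =
      fun a => (l a).foldl (fun (acc : List γ) x => acc ++ f a x) [] := by
    funext a
    rw [l1_foldl_flatMap, List.nil_append]
  rw [e]
  exact h

@[fun_prop] protected theorem PT.flatten {l : α → List (List β)} (hl : PT l) :
    PT (fun a => (l a).flatten) := by
  have h := PT.flatMap (f := fun _ (x : List β) => x) hl (PT.snd PT.id)
  have e : (fun a => (l a).flatten) = fun a => (l a).flatMap (fun x => x) := by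
    funext a
    induction l a with
    | nil => rfl
    | cons b t ih => rw [List.flatten_cons, List.flatMap_cons, ih]
  rw [e]
  exact h

@[fun_prop] protected theorem PT.filter {l : α → List β} {f : α → β → Bool} (hl : PT l)
    (hf : PT (fun p : α × β => f p.1 p.2)) : PT (fun a => (l a).filter (f a)) := by
  have h := PT.flatMap (f := fun a x => bif f a x then [x] else []) hl
    (PT.cond hf (PT.cons (PT.snd PT.id) (PT.const ([] : List β))) (PT.const ([] : List β)))
  have e : (fun a => (l a).filter (f a)) =
      fun a => (l a).flatMap (fun x => bif f a x then [x] else []) := by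
    funext a
    induction l a with
    | nil => rfl
    | cons b t ih =>
      rw [List.filter_cons, List.flatMap_cons, ih]
      cases f a b <;> simp
  rw [e]
  exact h

/-- step function for `takeWhile` -/
private def l1_tw (f : β → Bool) (p : Bool × List β) (x : β) : Bool × List β :=
  bif p.1 && f x then (true, x :: p.2) else (false, p.2)

omit [PEnc α] [PEnc β] [PEnc γ] [PEnc δ] in
private theorem l1_tw_false (f : β → Bool) (l acc : List β) :
    l.foldl (l1_tw f) (false, acc) = (false, acc) := by
  induction l generalizing acc with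
  | nil => rfl
  | cons b l ih => rw [List.foldl_cons]; simpa [l1_tw] using ih acc

omit [PEnc α] [PEnc β] [PEnc γ] [PEnc δ] in
private theorem l1_tw_true (f : β → Bool) (l acc : List β) :
    (l.foldl (l1_tw f) (true, acc)).2 = (l.takeWhile f).reverse ++ acc := by
  induction l generalizing acc with
  | nil => rfl
  | cons b l ih =>
    rw [List.foldl_cons, List.takeWhile_cons]
    cases h : f b with
    | true =>
      have : l1_tw f (true, acc) b = (true, b :: acc) := by simp [l1_tw, h]
      rw [this, ih]; simp
    | false =>
      have : l1_tw f (true, acc) b = (false, acc) := by simp [l1_tw, h]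
      rw [this, l1_tw_false]; simp

@[fun_prop] protected theorem PT.takeWhile {l : α → List β} {f : α → β → Bool} (hl : PT l)
    (hf : PT (fun p : α × β => f p.1 p.2)) : PT (fun a => (l a).takeWhile (f a)) := by
  have h1 : PT (fun q : α × (Bool × List β) × β => f q.1 q.2.2) :=
    PT.comp (f := fun q : α × (Bool × List β) × β => (q.1, q.2.2)) hf
      (PT.pair (PT.fst PT.id) (PT.snd (PT.snd PT.id)))
  have hs : PT (fun q : α × (Bool × List β) × β => l1_tw (f q.1) q.2.1 q.2.2) :=
    PT.cond (PT.and (PT.fst (PT.fst (PT.snd PT.id))) h1)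
      (PT.pair (PT.const true) (PT.cons (PT.snd (PT.snd PT.id)) (PT.snd (PT.fst (PT.snd PT.id)))))
      (PT.pair (PT.const false) (PT.snd (PT.fst (PT.snd PT.id))))
  have h := PT.foldl_add (s := fun a => l1_tw (f a)) hl (PT.const ((true, []) : Bool × List β)) hs
    (fun a => 2 * sz (l a) + 1) (((PB.const 2).mul (PT.pb_sz hl)).add (PB.const 1)) (by
      rintro a ⟨c, acc⟩ x hx
      have := sz_le_of_mem hx
      unfold l1_tw
      cases hb : (c && f a x) <;> simp only [hb, cond_true, cond_false, sz_mk, sz_bool, sz_cons] <;>
        omega)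
  have e : (fun a => (l a).takeWhile (f a)) =
      fun a => (((l a).foldl (l1_tw (f a)) (true, [])).2).reverse := by
    funext a
    rw [l1_tw_true, List.append_nil, List.reverse_reverse]
  rw [e]
  exact PT.reverse (PT.snd h)

/-- step function for `dropWhile` -/
private def l1_dw (f : β → Bool) (p : Bool × List β) (x : β) : Bool × List β :=
  bif p.1 && f x then p else (false, x :: p.2)

omit [PEnc α] [PEnc β] [PEnc γ] [PEnc δ] in
private theorem l1_dw_false (f : β → Bool) (l acc : List β) :
    l.foldl (l1_dw f) (false, acc) = (false, l.reverse ++ acc) := by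
  induction l generalizing acc with
  | nil => rfl
  | cons b l ih =>
    rw [List.foldl_cons]
    have : l1_dw f (false, acc) b = (false, b :: acc) := by simp [l1_dw]
    rw [this, ih]; simp

omit [PEnc α] [PEnc β] [PEnc γ] [PEnc δ] in
private theorem l1_dw_true (f : β → Bool) (l : List β) :
    (l.foldl (l1_dw f) (true, [])).2 = (l.dropWhile f).reverse := by
  induction l with
  | nil => rfl
  | cons b l ih =>
    rw [List.foldl_cons, List.dropWhile_cons]
    cases h : f b with
    | true =>
      have : l1_dw f (true, []) b = (true, []) := by simp [l1_dw, h]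
      rw [this, ih]; simp
    | false =>
      have : l1_dw f (true, []) b = (false, [b]) := by simp [l1_dw, h]
      rw [this, l1_dw_false]; simp

@[fun_prop] protected theorem PT.dropWhile {l : α → List β} {f : α → β → Bool} (hl : PT l)
    (hf : PT (fun p : α × β => f p.1 p.2)) : PT (fun a => (l a).dropWhile (f a)) := by
  have h1 : PT (fun q : α × (Bool × List β) × β => f q.1 q.2.2) :=
    PT.comp (f := fun q : α × (Bool × List β) × β => (q.1, q.2.2)) hf
      (PT.pair (PT.fst PT.id) (PT.snd (PT.snd PT.id)))
  have hs : PT (fun q : α × (Bool × List β) × β => l1_dw (f q.1) q.2.1 q.2.2) :=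
    PT.cond (PT.and (PT.fst (PT.fst (PT.snd PT.id))) h1)
      (PT.fst (PT.snd PT.id))
      (PT.pair (PT.const false) (PT.cons (PT.snd (PT.snd PT.id)) (PT.snd (PT.fst (PT.snd PT.id)))))
  have h := PT.foldl_add (s := fun a => l1_dw (f a)) hl (PT.const ((true, []) : Bool × List β)) hs
    (fun a => 2 * sz (l a) + 1) (((PB.const 2).mul (PT.pb_sz hl)).add (PB.const 1)) (by
      rintro a ⟨c, acc⟩ x hx
      have := sz_le_of_mem hx
      unfold l1_dw
      cases hb : (c && f a x) <;> simp only [hb, cond_true, cond_false, sz_mk, sz_bool, sz_cons] <;>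
        omega)
  have e : (fun a => (l a).dropWhile (f a)) =
      fun a => (((l a).foldl (l1_dw (f a)) (true, [])).2).reverse := by
    funext a
    rw [l1_dw_true, List.reverse_reverse]
  rw [e]
  exact PT.reverse (PT.snd h)

@[fun_prop] protected theorem PT.any {l : α → List β} {f : α → β → Bool} (hl : PT l)
    (hf : PT (fun p : α × β => f p.1 p.2)) : PT (fun a => (l a).any (f a)) := by
  have h := PT.not (PT.isEmpty (PT.filter hl hf))
  have e : (fun a => (l a).any (f a)) = fun a => !((l a).filter (f a)).isEmpty := by
    funext a
    induction l a with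
    | nil => rfl
    | cons b t ih =>
      rw [List.any_cons, List.filter_cons, ih]
      cases f a b <;> simp
  rw [e]
  exact h

@[fun_prop] protected theorem PT.all {l : α → List β} {f : α → β → Bool} (hl : PT l)
    (hf : PT (fun p : α × β => f p.1 p.2)) : PT (fun a => (l a).all (f a)) := by
  have h := PT.not (PT.any (f := fun a x => !(f a x)) hl (PT.not hf))
  have e : (fun a => (l a).all (f a)) = fun a => !((l a).any (fun x => !(f a x))) := by
    funext a
    induction l a with
    | nil => rfl
    | cons b t ih =>
      rw [List.any_cons, List.all_cons, ih]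
      cases f a b <;> simp
  rw [e]
  exact h

end Crest.Agent.PolyT
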