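import Crest.Agent.Lib.PolyTime.Fold
import Crest.Agent.Lib.PolyTime.Raw
import Crest.Agent.Lib.PolyTime.Lists1

/-! # PT_EQ: equality test

Equality of two lists of bits by one `PT.foldl` over the first list with state
`(still equal : Bool, rest of the second list)`; general equality through `PT.enc`, `enc_inj`. -/

set_option autoImplicit false

namespace Crest.Agent.PolyT

open Crest.Complexity PEnc

variable {α β : Type} [PEnc α] [PEnc β]

/-- one step of the comparison -/
private def eqStep (st : Bool × List Bool) (b : Bool) : Bool × List Bool :=
  (st.1 && !(st.2.isEmpty) && !(Bool.xor b (st.2.headD false)), st.2.tail)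

private theorem eqStep_fold (x : List Bool) : ∀ (e : Bool) (y : List Bool),
    ((x.foldl eqStep (e, y)).1 && (x.foldl eqStep (e, y)).2.isEmpty) = (e && decide (x = y)) := by
  induction x with
  | nil =>
    intro e y
    cases y <;> simp
  | cons b x ih =>
    intro e y
    rw [List.foldl_cons]
    have h : eqStep (e, y) b = ((e && !(y.isEmpty) && !(Bool.xor b (y.headD false))), y.tail) := rfl
    rw [h, ih]
    cases y with
    | nil => simp
    | cons c y =>
      cases e <;> cases b <;> cases c <;> simp

private theorem PT_eqBits {f g : α → List Bool} (hf : PT f) (hg : PT g) :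
    PT (fun a => decide (f a = g a)) := by
  have h1 : PT (fun a => (f a).foldl (fun st b => eqStep st b) (true, g a)) := by
    refine PT.foldl_inv (s := fun _ st b => eqStep st b) hf (by fun_prop) ?_
      (fun a => 3 + sz (g a)) (PB.add (PB.const 3) (PT.pb_sz hg))
      (fun a _ c => sz c.2 ≤ sz (g a)) (fun a => le_refl _) ?_ ?_
    · unfold eqStep
      fun_prop
    · intro a i c x _ h
      refine le_trans ?_ h
      show sz c.2.tail ≤ sz c.2
      cases c.2 with
      | nil => simp
      | cons b t => simp
    · intro a i c _ h
      rw [sz_prod, sz_bool]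
      omega
  have h2 : (fun a => decide (f a = g a)) = fun a =>
      ((f a).foldl (fun st b => eqStep st b) (true, g a)).1 &&
        ((f a).foldl (fun st b => eqStep st b) (true, g a)).2.isEmpty := by
    funext a
    rw [eqStep_fold, Bool.true_and]
  rw [h2]
  exact PT.and (PT.fst h1) (PT.isEmpty (PT.snd h1))

@[fun_prop] protected theorem PT.eq [DecidableEq β] {f g : α → β} (hf : PT f) (hg : PT g) :
    PT (fun a => decide (f a = g a)) := by
  have h := PT_eqBits (PT.enc hf) (PT.enc hg)
  have h1 : (fun a => decide (f a = g a)) =
      fun a => decide ((PEnc.enc (f a) : List Bool) = PEnc.enc (g a)) := by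
    funext a
    rw [decide_eq_decide]
    exact ⟨fun h => by rw [h], fun h => enc_inj h⟩
  rw [h1]
  exact h

@[fun_prop] protected theorem PT.beq [DecidableEq β] {f g : α → β} (hf : PT f) (hg : PT g) :
    PT (fun a => f a == g a) := by
  have h1 : (fun a => f a == g a) = fun a => decide (f a = g a) := by
    funext a
    exact beq_eq_decide _ _
  rw [h1]
  exact PT.eq hf hg

@[fun_prop] protected theorem PT.ne [DecidableEq β] {f g : α → β} (hf : PT f) (hg : PT g) :
    PT (fun a => decide (f a ≠ g a)) := by
  exact PT.decide_not (PT.eq hf hg)

end Crest.Agent.PolyT
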