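import Crest.Agent.Lib.PolyTime.Basic

/-! # PT_PB: closure properties of `PB` (polynomially bounded functions)  -/

set_option autoImplicit false

namespace Crest.Agent.PolyT

open Crest.Complexity PEnc

variable {α β γ : Type} [PEnc α] [PEnc β] [PEnc γ]

/-- polynomials with natural coefficients are monotone -/
theorem poly_eval_mono (p : Polynomial ℕ) {m n : ℕ} (h : m ≤ n) : p.eval m ≤ p.eval n := by
  rw [Polynomial.eval_eq_sum_range, Polynomial.eval_eq_sum_range]
  exact Finset.sum_le_sum fun i _ => Nat.mul_le_mul_left _ (Nat.pow_le_pow_left h i)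

protected theorem PB.of_le {f g : α → ℕ} (hg : PB g) (h : ∀ a, f a ≤ g a) : PB f := by
  obtain ⟨p, hp⟩ := hg
  exact ⟨p, fun a => (h a).trans (hp a)⟩

protected theorem PB.const (n : ℕ) : PB (fun _ : α => n) := by
  exact ⟨Polynomial.C n, fun a => by simp⟩

protected theorem PB.add {f g : α → ℕ} (hf : PB f) (hg : PB g) : PB (fun a => f a + g a) := by
  obtain ⟨p, hp⟩ := hf
  obtain ⟨q, hq⟩ := hg
  exact ⟨p + q, fun a => by rw [Polynomial.eval_add]; exact Nat.add_le_add (hp a) (hq a)⟩

protected theorem PB.mul {f g : α → ℕ} (hf : PB f) (hg : PB g) : PB (fun a => f a * g a) := by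
  obtain ⟨p, hp⟩ := hf
  obtain ⟨q, hq⟩ := hg
  exact ⟨p * q, fun a => by rw [Polynomial.eval_mul]; exact Nat.mul_le_mul (hp a) (hq a)⟩

protected theorem PB.pow {f : α → ℕ} (hf : PB f) (k : ℕ) : PB (fun a => f a ^ k) := by
  obtain ⟨p, hp⟩ := hf
  exact ⟨p ^ k, fun a => by rw [Polynomial.eval_pow]; exact Nat.pow_le_pow_left (hp a) k⟩

protected theorem PB.max {f g : α → ℕ} (hf : PB f) (hg : PB g) : PB (fun a => max (f a) (g a)) := by
  exact (hf.add hg).of_le fun a => by omega

protected theorem PB.ite {c : α → Prop} [DecidablePred c] {f g : α → ℕ} (hf : PB f) (hg : PB g) :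
    PB (fun a => if c a then f a else g a) := by
  exact (hf.add hg).of_le fun a => by split_ifs <;> omega

protected theorem PB.sub {f g : α → ℕ} (hf : PB f) : PB (fun a => f a - g a) := by
  exact hf.of_le fun a => Nat.sub_le _ _

protected theorem PB.div {f g : α → ℕ} (hf : PB f) : PB (fun a => f a / g a) := by
  exact hf.of_le fun a => Nat.div_le_self _ _

protected theorem PB.mod_left {f g : α → ℕ} (hf : PB f) : PB (fun a => f a % g a) := by
  exact hf.of_le fun a => Nat.mod_le _ _

protected theorem PB.eval {f : α → ℕ} (hf : PB f) (p : Polynomial ℕ) : PB (fun a => p.eval (f a)) := by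
  obtain ⟨q, hq⟩ := hf
  exact ⟨p.comp q, fun a => by rw [Polynomial.eval_comp]; exact poly_eval_mono p (hq a)⟩

/-- `PB` composed with a `PT` function -/
protected theorem PB.comp {f : β → ℕ} (hf : PB f) {g : α → β} (hg : PT g) : PB (fun a => f (g a)) := by
  obtain ⟨p, hp⟩ := hf
  obtain ⟨q, hq⟩ := hg.sz_le
  exact ⟨p.comp q, fun a => by rw [Polynomial.eval_comp]; exact (hp _).trans (poly_eval_mono p (hq a))⟩

/-- the size of the value of a `PT` function -/
protected theorem PT.pb_sz {f : α → β} (hf : PT f) : PB (fun a => sz (f a)) := by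
  exact hf.sz_le

protected theorem PT.pb_length {f : α → List β} (hf : PT f) : PB (fun a => (f a).length) := by
  exact hf.pb_sz.of_le fun a => length_le_sz _

/-- unary numbers are polynomially bounded -/
protected theorem PB.unVal {f : α → Un} (hf : PT f) : PB (fun a => (f a).val) := by
  exact hf.pb_sz.of_le fun a => by simp

protected theorem PB.toNat {f : α → Bool} : PB (fun a => (f a).toNat) := by
  exact (PB.const 1).of_le fun a => by cases f a <;> simp

protected theorem PB.min_left {f g : α → ℕ} (hf : PB f) : PB (fun a => min (f a) (g a)) := by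
  exact hf.of_le fun a => min_le_left _ _

protected theorem PB.min_right {f g : α → ℕ} (hg : PB g) : PB (fun a => min (f a) (g a)) := by
  exact hg.of_le fun a => min_le_right _ _

protected theorem PB.size {f : α → ℕ} (hf : PT f) : PB (fun a => (f a).size) := by
  exact hf.pb_sz.of_le fun a => (sz_nat _).symm.le

protected theorem PB.fst {f : α → ℕ} (hf : PB f) : PB (fun p : α × β => f p.1) := by
  exact hf.comp (PT.fst PT.id)

protected theorem PB.snd {f : β → ℕ} (hf : PB f) : PB (fun p : α × β => f p.2) := by
  exact hf.comp (PT.snd PT.id)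

/-- a sum of polynomially many polynomially bounded terms (each bounded by a fixed `PB` function) -/
protected theorem PB.sum_range {n : α → ℕ} {f : α → ℕ → ℕ} {b : α → ℕ} (hn : PB n) (hb : PB b)
    (h : ∀ a i, i < n a → f a i ≤ b a) : PB (fun a => ∑ i ∈ Finset.range (n a), f a i) := by
  refine (hn.mul hb).of_le fun a => ?_
  calc ∑ i ∈ Finset.range (n a), f a i ≤ ∑ _i ∈ Finset.range (n a), b a :=
        Finset.sum_le_sum fun i hi => h a i (Finset.mem_range.1 hi)
    _ = n a * b a := by simp

/-- proves `PB (fun a => ...)` for arithmetic combinations of bounded functions; hypotheses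
`hb : PB n` are used (also composed with projections) -/
macro "pb" : tactic => `(tactic| (
  repeat' (first
    | assumption
    | apply PB.const
    | (apply PB.unVal; fun_prop)
    | apply PB.toNat
    | (apply PT.pb_length; fun_prop)
    | (apply PB.size; fun_prop)
    | apply PB.add
    | apply PB.mul
    | apply PB.pow
    | apply PB.max
    | apply PB.sub
    | apply PB.div
    | apply PB.mod_left
    | (refine PB.comp (by assumption) ?_; fun_prop)
    | apply PB.ite)))

end Crest.Agent.PolyT
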