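import Crest.Agent.Lib.PolyTime.CoreBasic
import Crest.Agent.Lib.PolyTime.CorePair
import Crest.Agent.Lib.PolyTime.CoreUnpair
import Crest.Agent.Lib.PolyTime.CoreIte
import Crest.Agent.Lib.PolyTime.CoreLenMul

/-! # PT_PAD: strings of polynomial length

`polyTime_pad p`: induction on the polynomial (`Polynomial.induction_on'`): sums by
`polyTime_append` applied to a pair, monomials by induction on the degree with `polyTime_lenMul`
(note `replicate (|u| * |v|)`), constants by `polyTime_const`. -/

set_option autoImplicit false

namespace Crest.Agent.PolyT

open Crest.Complexity

theorem polyTime_pad (p : Polynomial ℕ) :
    PolyTime (fun x => List.replicate (p.eval x.length) true) := by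
  induction p using Polynomial.induction_on' with
  | add p q hp hq =>
    have h := polyTime_comp polyTime_append (polyTime_pair hp hq)
    convert h using 1
    funext x
    simp [Polynomial.eval_add]
  | monomial n a =>
    induction n with
    | zero =>
      convert polyTime_const (List.replicate a true) using 1
      funext x
      simp
    | succ n ih =>
      have h := polyTime_comp polyTime_lenMul (polyTime_pair ih polyTime_id)
      convert h using 1
      funext x
      simp [pow_succ, mul_assoc]

end Crest.Agent.PolyT
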