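import Crest.Agent.Lib.PolyTime.Basic
import Crest.Agent.Lib.PolyTime.PBound
import Crest.Agent.Lib.PolyTime.CoreIter
import Crest.Agent.Lib.PolyTime.Pad

/-! # PT_FOLD: bounded left folds and recursions on lists

foldl: iterate (`polyTime_iterate`) the step on states `(a, acc, rest) : α × γ × List β`:
`(a, acc, []) ↦ (a, acc, [])`, `(a, acc, b :: rest) ↦ (a, s a acc b, rest)` (a `PT` map by `PT.listCases`);
the string `u` of `polyTime_iterate` is `polyTime_pad p` of `enc a` for a polynomial `p` bounding the length
of the list and the size of all states. -/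

set_option autoImplicit false

namespace Crest.Agent.PolyT

open Crest.Complexity PEnc

variable {α β γ : Type} [PEnc α] [PEnc β] [PEnc γ]

/-- one step of the fold -/
private def fStep (s : α → γ → β → γ) (p : α × γ × List β) : α × γ × List β :=
  match p.2.2 with
  | [] => p
  | b :: t => (p.1, s p.1 p.2.1 b, t)

omit [PEnc α] [PEnc β] [PEnc γ] in
private theorem fStep_iter (s : α → γ → β → γ) (a : α) (c : γ) (l : List β) (k : ℕ) :
    (fStep s)^[k] (a, c, l) = (a, (l.take k).foldl (s a) c, l.drop k) := by
  induction k generalizing c l with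
  | zero => simp
  | succ k ih =>
    rw [Function.iterate_succ_apply]
    cases l with
    | nil =>
      have : fStep s (a, c, ([] : List β)) = (a, c, []) := rfl
      rw [this, ih]; simp
    | cons b t =>
      have : fStep s (a, c, b :: t) = (a, s a c b, t) := rfl
      rw [this, ih]; simp

private theorem pt_fStep {s : α → γ → β → γ}
    (hs : PT (fun p : α × γ × β => s p.1 p.2.1 p.2.2)) : PT (fStep s) := by
  refine PT.listCases (α := α × γ × List β) (l := fun p => p.2.2) (f := fun p => p)
    (g := fun p b t => (p.1, s p.1 p.2.1 b, t)) (PT.snd (PT.snd PT.id)) PT.id ?_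
  have h1 : PT (fun q : (α × γ × List β) × β × List β => (q.1.1, q.1.2.1, q.2.1)) :=
    PT.pair (PT.fst (PT.fst PT.id)) (PT.pair (PT.fst (PT.snd (PT.fst PT.id)))
      (PT.fst (PT.snd PT.id)))
  exact PT.pair (PT.fst (PT.fst PT.id)) (PT.pair (PT.comp hs h1) (PT.snd (PT.snd PT.id)))

/-- **bounded left fold**: the sizes of all intermediate values must be polynomially bounded -/
protected theorem PT.foldl {l : α → List β} {z : α → γ} {s : α → γ → β → γ} (hl : PT l) (hz : PT z)
    (hs : PT (fun p : α × γ × β => s p.1 p.2.1 p.2.2)) (b : α → ℕ) (hb : PB b)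
    (h : ∀ a i, i ≤ (l a).length → sz (((l a).take i).foldl (s a) (z a)) ≤ b a) :
    PT (fun a => (l a).foldl (s a) (z a)) := by
  obtain ⟨gF, hgF, eF⟩ := pt_fStep hs
  have h0 : PT (fun a => (a, z a, l a)) := PT.pair PT.id (PT.pair hz hl)
  obtain ⟨g0, hg0, e0⟩ := h0
  have hB : PB (fun a => (2 * sz a + 1) + ((2 * b a + 1) + sz (l a))) :=
    ((((PB.const 2).mul (PT.pb_sz PT.id)).add (PB.const 1)).add
      ((((PB.const 2).mul hb).add (PB.const 1)).add (PT.pb_sz hl)))
  obtain ⟨p, hp⟩ := hB
  -- sizes of the states
  have hsz : ∀ a k, sz ((fStep s)^[k] (a, z a, l a)) ≤ p.eval (sz a) := by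
    intro a k
    have hpa : (2 * sz a + 1) + ((2 * b a + 1) + sz (l a)) ≤ p.eval (sz a) := hp a
    refine le_trans ?_ hpa
    rw [fStep_iter, sz_mk, sz_mk]
    have h1 : sz (((l a).take k).foldl (s a) (z a)) ≤ b a := by
      rcases le_total k (l a).length with hk | hk
      · exact h a k hk
      · rw [List.take_of_length_le hk, ← List.take_length (l := l a)]
        exact h a _ le_rfl
    have h2 : sz ((l a).drop k) ≤ sz (l a) := by
      have := sz_append ((l a).take k) ((l a).drop k)
      rw [List.take_append_drop] at this
      omega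
    omega
  have hlen : ∀ a, (l a).length ≤ p.eval (sz a) := by
    intro a
    have h1 := hp a
    have h2 := length_le_sz (l a)
    simp only at h1
    omega
  -- the iteration on codes
  have hit : ∀ a k, (fun y => (gF y).take (p.eval (sz a)))^[k] (enc (a, z a, l a)) =
      enc ((fStep s)^[k] (a, z a, l a)) := by
    intro a k
    induction k with
    | zero => rfl
    | succ k ih =>
      rw [Function.iterate_succ_apply', ih, Function.iterate_succ_apply', eF,
        List.take_of_length_le]
      have := hsz a (k + 1)
      rw [Function.iterate_succ_apply'] at this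
      exact this
  have key : PT (fun a => (a, (l a).foldl (s a) (z a), ([] : List β))) := by
    refine PT.of_polyTime _ (polyTime_comp (polyTime_iterate hgF)
      (polyTime_pair (polyTime_pad p) hg0)) ?_
    intro a
    simp only [fstCode_pairCode, sndCode_pairCode, List.length_replicate, e0]
    have e := hit a (p.eval (sz a))
    rw [fStep_iter, List.take_of_length_le (hlen a), List.drop_of_length_le (hlen a)] at e
    exact e.symm
  exact PT.fst (PT.snd key)

/-- invariant version: `R a i c` is an invariant of the intermediate values `c` after `i` steps -/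
protected theorem PT.foldl_inv {l : α → List β} {z : α → γ} {s : α → γ → β → γ} (hl : PT l) (hz : PT z)
    (hs : PT (fun p : α × γ × β => s p.1 p.2.1 p.2.2)) (b : α → ℕ) (hb : PB b)
    (R : α → ℕ → γ → Prop) (h0 : ∀ a, R a 0 (z a))
    (hstep : ∀ a i c x, (l a)[i]? = some x → R a i c → R a (i + 1) (s a c x))
    (hR : ∀ a i c, i ≤ (l a).length → R a i c → sz c ≤ b a) :
    PT (fun a => (l a).foldl (s a) (z a)) := by
  refine PT.foldl hl hz hs b hb ?_
  intro a i hi
  refine hR a i _ hi ?_
  induction i with
  | zero => simpa using h0 a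
  | succ i ih =>
    have hlt : i < (l a).length := hi
    have e := List.getElem?_eq_getElem hlt
    rw [List.take_add_one, e, Option.toList_some, List.foldl_append, List.foldl_cons, List.foldl_nil]
    exact hstep a i _ _ e (ih hlt.le)

/-- additive version: every step increases the size by at most `d a` -/
protected theorem PT.foldl_add {l : α → List β} {z : α → γ} {s : α → γ → β → γ} (hl : PT l) (hz : PT z)
    (hs : PT (fun p : α × γ × β => s p.1 p.2.1 p.2.2)) (d : α → ℕ) (hd : PB d)
    (h : ∀ a c x, x ∈ l a → sz (s a c x) ≤ sz c + d a) :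
    PT (fun a => (l a).foldl (s a) (z a)) := by
  refine PT.foldl_inv hl hz hs (fun a => sz (z a) + (l a).length * d a)
    ((PT.pb_sz hz).add ((PT.pb_length hl).mul hd)) (fun a i c => sz c ≤ sz (z a) + i * d a)
    (fun a => by simp) ?_ ?_
  · intro a i c x hx hc
    have := h a c x (List.mem_of_getElem? hx)
    rw [add_mul, one_mul]
    omega
  · intro a i c hi hc
    exact hc.trans (Nat.add_le_add_left (Nat.mul_le_mul_right _ hi) _)

end Crest.Agent.PolyT
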