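import Crest.Agent.Lib.PolyTime.Nat4

/-! # PT_INT: integers (`enc z = decide (z < 0) :: enc z.natAbs`) -/

set_option autoImplicit false

namespace Crest.Agent.PolyT

open Crest.Complexity PEnc

variable {α β : Type} [PEnc α] [PEnc β]

@[fun_prop] protected theorem PT.natAbs {f : α → ℤ} (hf : PT f) : PT (fun a => (f a).natAbs) := by
  have h : PT (fun z : ℤ => z.natAbs) := ⟨List.tail, polyTime_tail, fun z => rfl⟩
  exact PT.comp h hf

@[fun_prop] protected theorem PT.intNeg? {f : α → ℤ} (hf : PT f) :
    PT (fun a => decide (f a < 0)) := by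
  have h : (fun a => decide (f a < 0)) =
      fun a => (PEnc.enc (f a) : List Bool).headD false := by
    funext a; rfl
  rw [h]
  exact PT.headD (PT.enc hf) (PT.const false)

@[fun_prop] protected theorem PT.natCast {f : α → ℕ} (hf : PT f) : PT (fun a => (f a : ℤ)) := by
  have h : PT (fun n : ℕ => (n : ℤ)) := by
    refine ⟨fun x => false :: x, polyTime_cons false, fun n => ?_⟩
    rw [enc_int]
    have : decide ((n : ℤ) < 0) = false := by simp
    rw [this, Int.natAbs_natCast]
  exact PT.comp h hf

private theorem PT.negCast {f : α → ℕ} (hf : PT f) : PT (fun a => -(f a : ℤ)) := by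
  apply PT.of_enc
  have h : (fun a => (PEnc.enc (-(f a : ℤ)) : List Bool)) =
      fun a => decide (f a ≠ 0) :: (f a).bits := by
    funext a
    rw [enc_int, Int.natAbs_neg, Int.natAbs_natCast, enc_nat]
    congr 1
    rw [decide_eq_decide]
    omega
  rw [h]
  exact PT.cons (PT.ne hf (PT.const 0)) (PT.bits hf)

/-- integer with given sign and absolute value -/
@[fun_prop] protected theorem PT.intCond {c : α → Bool} {f : α → ℕ} (hc : PT c) (hf : PT f) :
    PT (fun a => bif c a then -(f a : ℤ) else (f a : ℤ)) := by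
  exact PT.cond hc (PT.negCast hf) (PT.natCast hf)

@[fun_prop] protected theorem PT.neg {f : α → ℤ} (hf : PT f) : PT (fun a => -(f a)) := by
  have h : (fun a => -(f a)) = fun a => bif !(decide (f a < 0)) then -(((f a).natAbs : ℕ) : ℤ)
      else (((f a).natAbs : ℕ) : ℤ) := by
    funext a
    by_cases h0 : f a < 0
    · simp only [h0, decide_true, Bool.not_true, cond_false]; omega
    · simp only [h0, decide_false, Bool.not_false, cond_true]; omega
  rw [h]
  exact PT.intCond (PT.not (PT.intNeg? hf)) (PT.natAbs hf)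

@[fun_prop] protected theorem PT.intAdd {f g : α → ℤ} (hf : PT f) (hg : PT g) :
    PT (fun a => f a + g a) := by
  have h : (fun a => f a + g a) = fun a =>
      bif Bool.xor (decide (f a < 0)) (decide (g a < 0)) then
        (bif decide ((g a).natAbs ≤ (f a).natAbs) then
          (bif decide (f a < 0) then -(((f a).natAbs - (g a).natAbs : ℕ) : ℤ)
            else (((f a).natAbs - (g a).natAbs : ℕ) : ℤ))
        else (bif decide (g a < 0) then -(((g a).natAbs - (f a).natAbs : ℕ) : ℤ)
            else (((g a).natAbs - (f a).natAbs : ℕ) : ℤ)))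
      else (bif decide (f a < 0) then -(((f a).natAbs + (g a).natAbs : ℕ) : ℤ)
            else (((f a).natAbs + (g a).natAbs : ℕ) : ℤ)) := by
    funext a
    by_cases h1 : f a < 0 <;> by_cases h2 : g a < 0 <;>
      by_cases h3 : (g a).natAbs ≤ (f a).natAbs <;>
      simp only [h1, h2, h3, decide_true, decide_false, Bool.xor_true, Bool.xor_false,
        Bool.not_true, Bool.not_false, cond_true, cond_false] <;> omega
  rw [h]
  have e1 := PT.intNeg? hf
  have e2 := PT.intNeg? hg
  have e3 := PT.natAbs hf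
  have e4 := PT.natAbs hg
  exact PT.cond (PT.xor e1 e2)
    (PT.cond (PT.natLe e4 e3) (PT.intCond e1 (PT.natSub e3 e4)) (PT.intCond e2 (PT.natSub e4 e3)))
    (PT.intCond e1 (PT.natAdd e3 e4))

@[fun_prop] protected theorem PT.intSub {f g : α → ℤ} (hf : PT f) (hg : PT g) :
    PT (fun a => f a - g a) := by
  have h : (fun a => f a - g a) = fun a => f a + -(g a) := by
    funext a; exact sub_eq_add_neg _ _
  rw [h]
  exact PT.intAdd hf (PT.neg hg)

@[fun_prop] protected theorem PT.intMul {f g : α → ℤ} (hf : PT f) (hg : PT g) :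
    PT (fun a => f a * g a) := by
  have h : (fun a => f a * g a) = fun a =>
      bif Bool.xor (decide (f a < 0)) (decide (g a < 0)) then
        -(((f a).natAbs * (g a).natAbs : ℕ) : ℤ)
      else (((f a).natAbs * (g a).natAbs : ℕ) : ℤ) := by
    funext a
    have k1 : ∀ z : ℤ, z < 0 → ((z.natAbs : ℕ) : ℤ) = -z := by intro z hz; omega
    have k2 : ∀ z : ℤ, ¬ z < 0 → ((z.natAbs : ℕ) : ℤ) = z := by intro z hz; omega
    push_cast [Int.natCast_mul]
    simp only [← Int.natCast_natAbs]
    by_cases h1 : f a < 0 <;> by_cases h2 : g a < 0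
    · rw [k1 _ h1, k1 _ h2]; simp [h1, h2]
    · rw [k1 _ h1, k2 _ h2]; simp [h1, h2]
    · rw [k2 _ h1, k1 _ h2]; simp [h1, h2]
    · rw [k2 _ h1, k2 _ h2]; simp [h1, h2]
  rw [h]
  exact PT.intCond (PT.xor (PT.intNeg? hf) (PT.intNeg? hg)) (PT.natMul (PT.natAbs hf) (PT.natAbs hg))

@[fun_prop] protected theorem PT.intLe {f g : α → ℤ} (hf : PT f) (hg : PT g) :
    PT (fun a => decide (f a ≤ g a)) := by
  have h : (fun a => decide (f a ≤ g a)) = fun a => !(decide (g a - f a < 0)) := by
    funext a
    by_cases h1 : f a ≤ g a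
    · have h2 : ¬ (g a - f a < 0) := by omega
      simp only [h1, h2, decide_true, decide_false, Bool.not_false]
    · have h2 : g a - f a < 0 := by omega
      simp only [h1, h2, decide_true, decide_false, Bool.not_true]
  rw [h]
  exact PT.not (PT.intNeg? (PT.intSub hg hf))

@[fun_prop] protected theorem PT.intLt {f g : α → ℤ} (hf : PT f) (hg : PT g) :
    PT (fun a => decide (f a < g a)) := by
  have h : (fun a => decide (f a < g a)) = fun a => decide (f a - g a < 0) := by
    funext a
    rw [decide_eq_decide]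
    omega
  rw [h]
  exact PT.intNeg? (PT.intSub hf hg)

private theorem PT.toNatAux {f : α → ℤ} (hf : PT f) : PT (fun a => (f a).toNat) := by
  have h : (fun a => (f a).toNat) = fun a => bif decide (f a < 0) then 0 else (f a).natAbs := by
    funext a
    by_cases h1 : f a < 0
    · simp only [h1, decide_true, cond_true]; omega
    · simp only [h1, decide_false, cond_false]; omega
  rw [h]
  exact PT.cond (PT.intNeg? hf) (PT.const 0) (PT.natAbs hf)

protected theorem PT.intSumRange {n : α → ℕ} {f : α → ℕ → ℤ} (hn : PT n) (hb : PB n)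
    (hf : PT (fun p : α × Un => f p.1 p.2.val)) :
    PT (fun a => ∑ i ∈ Finset.range (n a), f a i) := by
  have h : (fun a => ∑ i ∈ Finset.range (n a), f a i) = fun a =>
      ((∑ i ∈ Finset.range (n a), (f a i).toNat : ℕ) : ℤ) -
        ((∑ i ∈ Finset.range (n a), (-(f a i)).toNat : ℕ) : ℤ) := by
    funext a
    rw [Nat.cast_sum, Nat.cast_sum, ← Finset.sum_sub_distrib]
    refine Finset.sum_congr rfl fun i _ => ?_
    omega
  rw [h]
  have h1 : PT (fun p : α × Un => (f p.1 p.2.val).toNat) := PT.toNatAux hf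
  have h2 : PT (fun p : α × Un => (-(f p.1 p.2.val)).toNat) := PT.toNatAux (PT.neg hf)
  exact PT.intSub (PT.natCast (PT.sumRange (f := fun a i => (f a i).toNat) hn hb h1))
    (PT.natCast (PT.sumRange (f := fun a i => (-(f a i)).toNat) hn hb h2))

protected theorem PT.intProdRange {n : α → ℕ} {f : α → ℕ → ℤ} (hn : PT n) (hb : PB n)
    (hf : PT (fun p : α × Un => f p.1 p.2.val)) :
    PT (fun a => ∏ i ∈ Finset.range (n a), f a i) := by
  have h : (fun a => ∏ i ∈ Finset.range (n a), f a i) = fun a =>
      bif (∑ i ∈ Finset.range (n a), (bif decide (f a i < 0) then 1 else 0 : ℕ)).bodd then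
        -((∏ i ∈ Finset.range (n a), (f a i).natAbs : ℕ) : ℤ)
      else ((∏ i ∈ Finset.range (n a), (f a i).natAbs : ℕ) : ℤ) := by
    funext a
    induction n a with
    | zero => simp
    | succ k ih =>
      rw [Finset.prod_range_succ, Finset.sum_range_succ, Finset.prod_range_succ, Nat.bodd_add,
        Nat.cast_mul, ih]
      have k1 : ∀ z : ℤ, z < 0 → ((z.natAbs : ℕ) : ℤ) = -z := by intro z hz; omega
      have k2 : ∀ z : ℤ, ¬ z < 0 → ((z.natAbs : ℕ) : ℤ) = z := by intro z hz; omega
      by_cases h0 : f a k < 0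
      · rw [k1 _ h0]
        cases (∑ i ∈ Finset.range k, (bif decide (f a i < 0) then 1 else 0 : ℕ)).bodd <;>
          simp [h0]
      · rw [k2 _ h0]
        cases (∑ i ∈ Finset.range k, (bif decide (f a i < 0) then 1 else 0 : ℕ)).bodd <;>
          simp [h0]
  rw [h]
  have h1 : PT (fun p : α × Un => (bif decide (f p.1 p.2.val < 0) then 1 else 0 : ℕ)) :=
    PT.cond (PT.intNeg? hf) (PT.const 1) (PT.const 0)
  exact PT.intCond
    (PT.bodd (PT.sumRange (f := fun a i => (bif decide (f a i < 0) then 1 else 0 : ℕ)) hn hb h1))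
    (PT.prodRange (f := fun a i => (f a i).natAbs) hn hb (PT.natAbs hf))

@[fun_prop] protected theorem PT.intPow {f : α → ℤ} {n : α → ℕ} (hf : PT f) (hn : PT n) (hb : PB n) :
    PT (fun a => f a ^ n a) := by
  have h : (fun a => f a ^ n a) = fun a =>
      bif (decide (f a < 0) && (n a).bodd) then -(((f a).natAbs ^ n a : ℕ) : ℤ)
      else (((f a).natAbs ^ n a : ℕ) : ℤ) := by
    funext a
    have k1 : ∀ z : ℤ, z < 0 → ((z.natAbs : ℕ) : ℤ) = -z := by intro z hz; omega
    have k2 : ∀ z : ℤ, ¬ z < 0 → ((z.natAbs : ℕ) : ℤ) = z := by intro z hz; omega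
    rw [Nat.cast_pow]
    by_cases h0 : f a < 0
    · rw [k1 _ h0]
      rcases hbo : (n a).bodd with _ | _
      · have he : Even (n a) := by
          rw [Nat.even_iff, Nat.mod_two_of_bodd, hbo]; rfl
        simp [h0, he.neg_pow]
      · have ho : Odd (n a) := by
          rw [Nat.odd_iff, Nat.mod_two_of_bodd, hbo]; rfl
        simp [h0, ho.neg_pow]
    · rw [k2 _ h0]
      simp [h0]
  rw [h]
  exact PT.intCond (PT.and (PT.intNeg? hf) (PT.bodd hn)) (PT.natPow (PT.natAbs hf) hn hb)

end Crest.Agent.PolyT
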