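import Crest.Agent.Lib.PolyTime.Nat2

/-! # PT_LISTS2: length, unary numbers, range, bounded iteration, indexing

length: foldl with succ.
`replicate (n a) (f a)` for polynomially bounded `n`: fold over the bits of `n a`, most significant
first: `acc ↦ acc ++ acc ++ (if bit then [x] else [])` (length ≤ n a at every moment).
range: fold over a unary list with state (list reversed, counter).
iterate: fold over a unary list.  getD / take / drop: iterate tail, etc. -/

set_option autoImplicit false

namespace Crest.Agent.PolyT

open Crest.Complexity PEnc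

variable {α β γ : Type} [PEnc α] [PEnc β] [PEnc γ]

namespace Lists2Aux

theorem length_eq {δ : Type} (l : List δ) : l.length = l.foldl (fun c _ => Nat.succ c) 0 := by
  have h : ∀ (l : List δ) (k : ℕ), l.foldl (fun c _ => Nat.succ c) k = k + l.length := by
    intro l
    induction l with
    | nil => intro k; simp
    | cons a l ih => intro k; rw [List.foldl_cons, ih]; simp only [List.length_cons]; omega
  rw [h]; omega

/-- one step of `replicate` -/
def repStep {δ : Type} (x : δ) (acc : List δ) (b : Bool) : List δ :=
  acc ++ acc ++ (bif b then [x] else [])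

theorem foldl_repStep {δ : Type} (x : δ) (l : List Bool) :
    l.foldl (repStep x) [] = List.replicate (ofBits l.reverse) x := by
  induction l using List.reverseRecOn with
  | nil => simp
  | append_singleton l b ih =>
    rw [List.foldl_append, ih]
    simp only [List.foldl_cons, List.foldl_nil, List.reverse_append, List.reverse_cons,
      List.reverse_nil, List.nil_append, List.cons_append, ofBits_cons, repStep]
    cases b
    · simp only [cond_false, List.append_nil, Bool.toNat_false, zero_add]
      rw [← List.replicate_add, two_mul]
    · simp only [cond_true, Bool.toNat_true]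
      rw [← List.replicate_add, show [x] = List.replicate 1 x from rfl, ← List.replicate_add]
      congr 1; omega

theorem ofBits_drop_le (l : List Bool) : ∀ k, ofBits (l.drop k) ≤ ofBits l := by
  induction l with
  | nil => intro k; simp
  | cons b l ih =>
    intro k
    cases k with
    | zero => simp
    | succ k =>
      rw [List.drop_succ_cons, ofBits_cons]
      have := ih k
      omega

theorem sz_replicate {δ : Type} [PEnc δ] (k : ℕ) (x : δ) :
    sz (List.replicate k x) = k * (2 * sz x + 1) := by
  rw [sz_list, List.map_replicate, List.sum_replicate, smul_eq_mul]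

theorem replicate_take (n i : ℕ) {δ : Type} (x : δ) :
    ∃ m ≤ n, (n.bits.reverse.take i).foldl (repStep x) [] = List.replicate m x := by
  refine ⟨ofBits (n.bits.reverse.take i).reverse, ?_, foldl_repStep _ _⟩
  rw [List.take_reverse, List.reverse_reverse]
  exact (ofBits_drop_le _ _).trans (by rw [ofBits_bits])

theorem sz_range_le (i : ℕ) : sz (List.range i) ≤ i * (2 * i + 1) := by
  rw [sz_list]
  refine (List.sum_le_card_nsmul _ (2 * i + 1) ?_).trans ?_
  · intro y hy
    obtain ⟨j, hj, rfl⟩ := List.mem_map.1 hy
    have h1 := sz_nat_le j
    have h2 := List.mem_range.1 hj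
    omega
  · simp

theorem sz_rangeUn_le (i : ℕ) : sz ((List.range i).map Un.mk) ≤ i * (2 * i + 1) := by
  rw [sz_list]
  refine (List.sum_le_card_nsmul _ (2 * i + 1) ?_).trans ?_
  · intro y hy
    obtain ⟨j, hj, rfl⟩ := List.mem_map.1 hy
    obtain ⟨k, hk, rfl⟩ := List.mem_map.1 hj
    have h2 := List.mem_range.1 hk
    rw [sz_un]
    show 2 * k + 1 ≤ _
    omega
  · simp

theorem range_foldl (l : List Unit) :
    l.foldl (fun (c : List ℕ) _ => c ++ [c.length]) [] = List.range l.length := by
  induction l using List.reverseRecOn with
  | nil => simp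
  | append_singleton l b ih =>
    rw [List.foldl_append, ih]
    simp [List.range_succ]

theorem rangeUn_foldl (l : List Unit) :
    l.foldl (fun (c : List Un) _ => c ++ [Un.mk c.length]) [] = (List.range l.length).map Un.mk := by
  induction l using List.reverseRecOn with
  | nil => simp
  | append_singleton l b ih =>
    rw [List.foldl_append, ih]
    simp [List.range_succ]

end Lists2Aux

open Lists2Aux

@[fun_prop] protected theorem PT.length {l : α → List β} (hl : PT l) :
    PT (fun a => (l a).length) := by
  have h : (fun a => (l a).length) = fun a => (l a).foldl (fun c _ => Nat.succ c) 0 := by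
    funext a; exact length_eq _
  rw [h]
  refine PT.foldl (s := fun _ c _ => Nat.succ c) hl (PT.const 0) (by fun_prop)
    (fun a => (l a).length) (PT.pb_length hl) ?_
  intro a i hi
  rw [← length_eq]
  refine (sz_nat_le _).trans ?_
  rw [List.length_take]; omega

@[fun_prop] protected theorem PT.replicate {n : α → ℕ} {f : α → β} (hn : PT n) (hb : PB n) (hf : PT f) :
    PT (fun a => List.replicate (n a) (f a)) := by
  have h : (fun a => List.replicate (n a) (f a)) =
      fun a => (n a).bits.reverse.foldl (repStep (f a)) [] := by
    funext a
    rw [foldl_repStep, List.reverse_reverse, ofBits_bits]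
  rw [h]
  refine PT.foldl (s := fun a => repStep (f a)) (by fun_prop) (PT.const []) ?_
    (fun a => n a * (2 * sz (f a) + 1))
    (PB.mul hb (PB.add (PB.mul (PB.const 2) (PT.pb_sz hf)) (PB.const 1))) ?_
  · have hf' : PT (fun p : α × List β × Bool => f p.1) := PT.comp hf (by fun_prop)
    unfold repStep
    fun_prop
  · intro a i _
    obtain ⟨m, hm, he⟩ := replicate_take (n a) i (f a)
    rw [he, sz_replicate]
    exact Nat.mul_le_mul_right _ hm

@[fun_prop] protected theorem PT.unVal {u : α → Un} (hu : PT u) : PT (fun a => (u a).val) := by
  have h : (fun a => (u a).val) = fun a => (PEnc.enc (u a) : List Bool).length := by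
    funext a; rw [enc_un, List.length_replicate]
  rw [h]
  exact PT.length (PT.enc hu)

@[fun_prop] protected theorem PT.mkUn {n : α → ℕ} (hn : PT n) (hb : PB n) :
    PT (fun a => Un.mk (n a)) := by
  apply PT.of_enc
  exact PT.replicate hn hb (PT.const true)

@[fun_prop] protected theorem PT.range {n : α → ℕ} (hn : PT n) (hb : PB n) :
    PT (fun a => List.range (n a)) := by
  have h : (fun a => List.range (n a)) =
      fun a => (List.replicate (n a) ()).foldl (fun (c : List ℕ) _ => c ++ [c.length]) [] := by
    funext a; rw [range_foldl, List.length_replicate]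
  rw [h]
  refine PT.foldl (s := fun _ c _ => c ++ [c.length]) (PT.replicate hn hb (PT.const ()))
    (PT.const []) (by fun_prop) (fun a => n a * (2 * n a + 1))
    (PB.mul hb (PB.add (PB.mul (PB.const 2) hb) (PB.const 1))) ?_
  intro a i hi
  rw [List.length_replicate] at hi
  rw [range_foldl, List.length_take, List.length_replicate, min_eq_left hi]
  exact (sz_range_le i).trans (Nat.mul_le_mul hi (by omega))

/-- the list of the unary numbers `0, ..., n - 1` -/
@[fun_prop] protected theorem PT.rangeUn {n : α → ℕ} (hn : PT n) (hb : PB n) :
    PT (fun a => (List.range (n a)).map Un.mk) := by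
  have h : (fun a => (List.range (n a)).map Un.mk) =
      fun a => (List.replicate (n a) ()).foldl (fun (c : List Un) _ => c ++ [Un.mk c.length]) [] := by
    funext a; rw [rangeUn_foldl, List.length_replicate]
  rw [h]
  refine PT.foldl (s := fun _ c _ => c ++ [Un.mk c.length]) (PT.replicate hn hb (PT.const ()))
    (PT.const []) ?_ (fun a => n a * (2 * n a + 1))
    (PB.mul hb (PB.add (PB.mul (PB.const 2) hb) (PB.const 1))) ?_
  · have h1 : PT (fun p : α × List Un × Unit => p.2.1) := by fun_prop
    have h2 : PT (fun p : α × List Un × Unit => Un.mk p.2.1.length) :=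
      PT.mkUn (PT.length h1) (PT.pb_length h1)
    fun_prop
  · intro a i hi
    rw [List.length_replicate] at hi
    rw [rangeUn_foldl, List.length_take, List.length_replicate, min_eq_left hi]
    exact (sz_rangeUn_le i).trans (Nat.mul_le_mul hi (by omega))

/-- loop over a range; the body may treat the loop variable as a unary number -/
protected theorem PT.mapRange {n : α → ℕ} {f : α → ℕ → β} (hn : PT n) (hb : PB n)
    (hf : PT (fun p : α × Un => f p.1 p.2.val)) : PT (fun a => (List.range (n a)).map (f a)) := by
  have h : (fun a => (List.range (n a)).map (f a)) =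
      fun a => ((List.range (n a)).map Un.mk).map (fun u => f a u.val) := by
    funext a; rw [List.map_map]; rfl
  rw [h]
  exact PT.map (f := fun a u => f a u.val) (PT.rangeUn hn hb) hf

/-- loop over a range; the body may treat the loop variable as a unary number -/
protected theorem PT.flatMapRange {n : α → ℕ} {f : α → ℕ → List β} (hn : PT n) (hb : PB n)
    (hf : PT (fun p : α × Un => f p.1 p.2.val)) :
    PT (fun a => (List.range (n a)).flatMap (f a)) := by
  have h : (fun a => (List.range (n a)).flatMap (f a)) =
      fun a => ((List.range (n a)).map Un.mk).flatMap (fun u => f a u.val) := by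
    funext a; rw [List.flatMap_map]
  rw [h]
  exact PT.flatMap (f := fun a u => f a u.val) (PT.rangeUn hn hb) hf

protected theorem PT.filterRange {n : α → ℕ} {f : α → ℕ → Bool} (hn : PT n) (hb : PB n)
    (hf : PT (fun p : α × Un => f p.1 p.2.val)) :
    PT (fun a => (List.range (n a)).filter (f a)) := by
  have h : (fun a => (List.range (n a)).filter (f a)) =
      fun a => (((List.range (n a)).map Un.mk).filter (fun u => f a u.val)).map Un.val := by
    funext a
    rw [List.filter_map, List.map_map]
    have h1 : (Un.val ∘ Un.mk) = id := rfl
    rw [h1, List.map_id]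
    rfl
  rw [h]
  have h1 : PT (fun a => ((List.range (n a)).map Un.mk).filter (fun u => f a u.val)) :=
    PT.filter (f := fun a u => f a u.val) (PT.rangeUn hn hb) hf
  exact PT.map (f := fun _ u => Un.val u) h1 (by fun_prop)

protected theorem PT.allRange {n : α → ℕ} {f : α → ℕ → Bool} (hn : PT n) (hb : PB n)
    (hf : PT (fun p : α × Un => f p.1 p.2.val)) :
    PT (fun a => (List.range (n a)).all (f a)) := by
  have h : (fun a => (List.range (n a)).all (f a)) =
      fun a => ((List.range (n a)).map Un.mk).all (fun u => f a u.val) := by
    funext a; rw [List.all_map]; rfl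
  rw [h]
  exact PT.all (f := fun a u => f a u.val) (PT.rangeUn hn hb) hf

protected theorem PT.anyRange {n : α → ℕ} {f : α → ℕ → Bool} (hn : PT n) (hb : PB n)
    (hf : PT (fun p : α × Un => f p.1 p.2.val)) :
    PT (fun a => (List.range (n a)).any (f a)) := by
  have h : (fun a => (List.range (n a)).any (f a)) =
      fun a => ((List.range (n a)).map Un.mk).any (fun u => f a u.val) := by
    funext a; rw [List.any_map]; rfl
  rw [h]
  exact PT.any (f := fun a u => f a u.val) (PT.rangeUn hn hb) hf

/-- bounded iteration of a step -/
protected theorem PT.iterate {n : α → ℕ} {z : α → γ} {s : α → γ → γ} (hn : PT n) (hnb : PB n)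
    (hz : PT z) (hs : PT (fun p : α × γ => s p.1 p.2)) (b : α → ℕ) (hb : PB b)
    (h : ∀ a i, i ≤ n a → sz ((s a)^[i] (z a)) ≤ b a) :
    PT (fun a => (s a)^[n a] (z a)) := by
  have hfold : ∀ a (k : ℕ), (List.replicate k ()).foldl (fun c _ => s a c) (z a) =
      (s a)^[k] (z a) := by
    intro a k
    induction k with
    | zero => rfl
    | succ k ih =>
      rw [List.replicate_succ', List.foldl_append, ih, Function.iterate_succ_apply']
      rfl
  have h1 : PT (fun a => (List.replicate (n a) ()).foldl (fun c _ => s a c) (z a)) := by
    refine PT.foldl (s := fun a c (_ : Unit) => s a c) (PT.replicate hn hnb (PT.const ())) hz ?_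
      b hb ?_
    · exact PT.comp hs (PT.pair (PT.fst PT.id) (PT.fst (PT.snd PT.id)))
    · intro a i hi
      rw [List.length_replicate] at hi
      rw [List.take_replicate, min_eq_left hi, hfold]
      exact h a i hi
  simpa only [hfold] using h1

private theorem PT.unSucc_aux {u : α → Un} (hu : PT u) : PT (fun a => Un.mk ((u a).val + 1)) := by
  obtain ⟨g, hg, h⟩ := hu
  exact ⟨_, polyTime_comp (polyTime_cons true) hg, fun a => by
    simp only [h, enc_un, List.replicate_succ]⟩

/-- bounded recursion on numbers; the step may treat the number as a unary number -/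
protected theorem PT.natRec {n : α → ℕ} {z : α → γ} {s : α → ℕ → γ → γ} (hn : PT n) (hnb : PB n)
    (hz : PT z) (hs : PT (fun p : α × Un × γ => s p.1 p.2.1.val p.2.2)) (b : α → ℕ) (hb : PB b)
    (h : ∀ a i, i ≤ n a → sz (Nat.rec (motive := fun _ => γ) (z a) (s a) i) ≤ b a) :
    PT (fun a => Nat.rec (motive := fun _ => γ) (z a) (s a) (n a)) := by
  have hit : ∀ a k, (fun c : Un × γ => (Un.mk (c.1.val + 1), s a c.1.val c.2))^[k]
      (Un.mk 0, z a) = (Un.mk k, Nat.rec (motive := fun _ => γ) (z a) (s a) k) := by
    intro a k
    induction k with
    | zero => rfl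
    | succ k ih => rw [Function.iterate_succ_apply', ih]
  have h1 : PT (fun a => (fun c : Un × γ => (Un.mk (c.1.val + 1), s a c.1.val c.2))^[n a]
      (Un.mk 0, z a)) := by
    refine PT.iterate (s := fun a (c : Un × γ) => (Un.mk (c.1.val + 1), s a c.1.val c.2)) hn hnb
      (PT.pair (PT.const _) hz) (PT.pair (PT.unSucc_aux (PT.fst (PT.snd PT.id))) hs)
      (fun a => 2 * n a + 1 + b a) ((((PB.const 2).mul hnb).add (PB.const 1)).add hb) ?_
    intro a i hi
    have e := hit a i
    try simp only at e ⊢
    rw [e, sz_mk, sz_un]
    have := h a i hi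
    simp only at this ⊢
    omega
  simp only [hit] at h1
  exact PT.snd h1

@[fun_prop] protected theorem PT.drop {n : α → ℕ} {l : α → List β} (hn : PT n) (hl : PT l) :
    PT (fun a => (l a).drop (n a)) := by
  have hm : PT (fun a => min (n a) (l a).length) := PT.natMin hn (PT.length hl)
  have hmb : PB (fun a => min (n a) (l a).length) := PB.min_right (PT.pb_length hl)
  have htail : ∀ (k : ℕ) (l : List β), (List.tail)^[k] l = l.drop k := by
    intro k
    induction k with
    | zero => intro l; rfl
    | succ k ih =>
      intro l
      rw [Function.iterate_succ_apply', ih, List.tail_drop]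
  have hszd : ∀ (k : ℕ) (l : List β), sz (l.drop k) ≤ sz l := by
    intro k l
    have := sz_append (l.take k) (l.drop k)
    rw [List.take_append_drop] at this
    omega
  have h1 := PT.iterate (s := fun (_ : α) (c : List β) => c.tail) hm hmb hl
    (PT.tail (PT.snd PT.id)) (fun a => sz (l a)) (PT.pb_sz hl) (by
      intro a i _
      have e := htail i (l a)
      try simp only at e ⊢
      rw [e]
      exact hszd _ _)
  have e : (fun a => (l a).drop (n a)) =
      fun a => (fun c : List β => c.tail)^[min (n a) (l a).length] (l a) := by
    funext a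
    have e := htail (min (n a) (l a).length) (l a)
    try simp only at e ⊢
    rw [e]
    rcases le_total (n a) (l a).length with hle | hle
    · rw [min_eq_left hle]
    · rw [min_eq_right hle, List.drop_of_length_le hle, List.drop_length]
  rw [e]
  exact h1

@[fun_prop] protected theorem PT.take {n : α → ℕ} {l : α → List β} (hn : PT n) (hl : PT l) :
    PT (fun a => (l a).take (n a)) := by
  have e : (fun a => (l a).take (n a)) =
      fun a => ((l a).reverse.drop ((l a).length - n a)).reverse := by
    funext a
    rw [List.drop_reverse, List.reverse_reverse]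
    rcases le_total (n a) (l a).length with hle | hle
    · rw [Nat.sub_sub_self hle]
    · rw [Nat.sub_eq_zero_of_le hle, Nat.sub_zero, List.take_length, List.take_of_length_le hle]
  rw [e]
  exact PT.reverse (PT.drop (PT.natSub (PT.length hl) hn) (PT.reverse hl))

@[fun_prop] protected theorem PT.getElem? {n : α → ℕ} {l : α → List β} (hl : PT l) (hn : PT n) :
    PT (fun a => (l a)[n a]?) := by
  have e : (fun a => (l a)[n a]?) = fun a => ((l a).drop (n a)).head? := by
    funext a
    rw [List.head?_drop]
  rw [e]
  exact PT.head? (PT.drop hn hl)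

@[fun_prop] protected theorem PT.listGetD {n : α → ℕ} {l : α → List β} {d : α → β} (hl : PT l)
    (hn : PT n) (hd : PT d) : PT (fun a => (l a).getD (n a) (d a)) := by
  have e : (fun a => (l a).getD (n a) (d a)) = fun a => ((l a)[n a]?).getD (d a) := by
    funext a
    rw [List.getD_eq_getElem?_getD]
  rw [e]
  exact PT.getD (PT.getElem? hl hn) hd

@[fun_prop] protected theorem PT.natSize {f : α → ℕ} (hf : PT f) : PT (fun a => (f a).size) := by
  have e : (fun a => (f a).size) = fun a => (f a).bits.length := by
    funext a
    exact Nat.size_eq_bits_len (f a) |>.symm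
  rw [e]
  exact PT.length (PT.bits hf)

omit [PEnc β] [PEnc γ] in
private theorem zip_eq_aux (l : List β) (l' : List γ) :
    l.zip l' = (List.range l.length).flatMap fun i =>
      (l[i]?).elim [] fun x => (l'[i]?).elim [] fun y => [(x, y)] := by
  induction l generalizing l' with
  | nil => simp
  | cons x t ih =>
    cases l' with
    | nil =>
      simp only [List.zip_nil_right, List.getElem?_nil, Option.elim_none]
      symm
      rw [List.flatMap_eq_nil_iff]
      intro i _
      cases (x :: t)[i]? <;> rfl
    | cons y t' =>
      rw [List.length_cons, List.range_succ_eq_map, List.flatMap_cons, List.flatMap_map,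
        List.zip_cons_cons, ih]
      simp

@[fun_prop] protected theorem PT.zip {l : α → List β} {l' : α → List γ} (hl : PT l)
    (hl' : PT l') : PT (fun a => (l a).zip (l' a)) := by
  simp only [zip_eq_aux]
  refine PT.flatMapRange (f := fun a i => ((l a)[i]?).elim [] fun x => ((l' a)[i]?).elim []
    fun y => [(x, y)]) (PT.length hl) (PT.pb_length hl) ?_
  refine PT.optCases (o := fun p : α × Un => (l p.1)[p.2.val]?) (f := fun _ => [])
    (g := fun p x => ((l' p.1)[p.2.val]?).elim [] fun y => [(x, y)])
    (PT.getElem? (PT.comp hl (PT.fst PT.id)) (PT.unVal (PT.snd PT.id))) (PT.const _) ?_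
  refine PT.optCases (o := fun q : (α × Un) × β => (l' q.1.1)[q.1.2.val]?) (f := fun _ => [])
    (g := fun q y => [(q.2, y)])
    (PT.getElem? (PT.comp hl' (PT.fst (PT.fst PT.id))) (PT.unVal (PT.snd (PT.fst PT.id))))
    (PT.const _) ?_
  exact PT.cons (PT.pair (PT.snd (PT.fst PT.id)) (PT.snd PT.id)) (PT.const _)

end Crest.Agent.PolyT
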