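import Crest.Agent.Lib.PolyTime.Lists1
import Crest.Agent.Lib.PolyTime.Eq

/-! # PT_NAT1: binary numbers: conversion from bits, comparison, addition, subtraction

All through `PT.bits` and lists of bits.
`ofBits`: strip the `false`s at the end (reverse, dropWhile, reverse) and `PT.of_enc`.
add: fold over the (least significant first) bits of the first number with state
(carry, rest of the bits of the second number, output reversed), then the rest of the second number.
Comparison: state (result so far) from the least significant bit, after padding; or via subtraction.
You may prove the statements in any convenient order. -/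

set_option autoImplicit false

namespace Crest.Agent.PolyT

open Crest.Complexity PEnc

variable {α β : Type} [PEnc α] [PEnc β]

namespace Nat1Aux

theorem ofBits_append (l l' : List Bool) : ofBits (l ++ l') = ofBits l + 2 ^ l.length * ofBits l' := by
  induction l with
  | nil => simp
  | cons b l ih => simp only [List.cons_append, ofBits_cons, ih, List.length_cons, pow_succ]; ring

theorem ofBits_eq_zero_iff (l : List Bool) : ofBits l = 0 ↔ ∀ b ∈ l, b = false := by
  induction l with
  | nil => simp
  | cons b l ih =>
    simp only [ofBits_cons, List.mem_cons, forall_eq_or_imp, ← ih]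
    cases b
    · simp
    · simp

theorem bits_ofBits (l : List Bool) :
    (ofBits l).bits = (l.reverse.dropWhile (fun b => !b)).reverse := by
  induction l with
  | nil => simp
  | cons b l ih =>
    rw [List.reverse_cons, List.dropWhile_append]
    have hbit : ofBits (b :: l) = Nat.bit b (ofBits l) := by
      rw [ofBits_cons, Nat.bit_val]; ring
    rw [hbit]
    by_cases h0 : ofBits l = 0
    · have h1 : l.reverse.dropWhile (fun b => !b) = [] := by
        rw [List.dropWhile_eq_nil_iff]
        intro x hx
        have := (ofBits_eq_zero_iff l).1 h0 x (List.mem_reverse.1 hx)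
        simp [this]
      rw [h0, h1]
      cases b <;> simp
    · have h1 : (l.reverse.dropWhile (fun b => !b)) ≠ [] := by
        intro h2
        apply h0
        rw [ofBits_eq_zero_iff]
        intro x hx
        have := (List.dropWhile_eq_nil_iff.1 h2) x (List.mem_reverse.2 hx)
        simpa using this
      have h2 : (l.reverse.dropWhile (fun b => !b)).isEmpty = false := by
        simpa [List.isEmpty_iff] using h1
      rw [h2]
      simp only [Bool.false_eq_true, if_false, List.reverse_append, List.reverse_cons,
        List.reverse_nil, List.nil_append, List.cons_append]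
      rw [← ih]
      exact Nat.bits_append_bit _ _ (fun h => absurd h h0)

/-- one step of the addition -/
def addStep (c : Bool × List Bool × List Bool) (x : Bool) : Bool × List Bool × List Bool :=
  ((x && c.1) || ((x && c.2.1.headD false) || (c.1 && c.2.1.headD false)), c.2.1.tail,
    (Bool.xor (Bool.xor x c.1) (c.2.1.headD false)) :: c.2.2)

theorem ofBits_head_tail (r : List Bool) : ofBits r = (r.headD false).toNat + 2 * ofBits r.tail := by
  cases r <;> simp

theorem add_inv (l : List Bool) : ∀ (c : Bool) (r out : List Bool),
    ofBits (l.foldl addStep (c, r, out)).2.2.reverse +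
      2 ^ (out.length + l.length) * ((l.foldl addStep (c, r, out)).1.toNat +
        ofBits (l.foldl addStep (c, r, out)).2.1) =
    ofBits out.reverse + 2 ^ out.length * (c.toNat + ofBits l + ofBits r) := by
  induction l with
  | nil => intro c r out; simp
  | cons x l ih =>
    intro c r out
    have h := ih (addStep (c, r, out) x).1 (addStep (c, r, out) x).2.1 (addStep (c, r, out) x).2.2
    simp only [List.foldl_cons]
    have e1 : out.length + (x :: l).length = (addStep (c, r, out) x).2.2.length + l.length := by
      simp only [addStep, List.length_cons]; ring
    rw [e1]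
    refine h.trans ?_
    simp only [addStep, List.reverse_cons, ofBits_append, List.length_reverse, List.length_cons,
      pow_succ, ofBits_cons, ofBits_nil]
    rw [ofBits_head_tail r]
    have key : (Bool.xor (Bool.xor x c) (r.headD false)).toNat + 2 *
        ((x && c) || ((x && r.headD false) || (c && r.headD false))).toNat =
        x.toNat + c.toNat + (r.headD false).toNat := by
      cases x <;> cases c <;> cases (r.headD false) <;> rfl
    calc _ = ofBits out.reverse + 2 ^ out.length *
          (((Bool.xor (Bool.xor x c) (r.headD false)).toNat + 2 *
        ((x && c) || ((x && r.headD false) || (c && r.headD false))).toNat) + 2 * ofBits l +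
          2 * ofBits r.tail) := by ring
      _ = _ := by rw [key]; ring

theorem ofBits_map_false {γ : Type} (l : List γ) : ofBits (l.map fun _ => false) = 0 := by
  rw [ofBits_eq_zero_iff]; simp

theorem lt_bits (n : ℕ) : n < 2 ^ n.bits.length := lt_two_pow_sz n

theorem add_eq (m n : ℕ) :
    ofBits ((m.bits ++ (false :: n.bits.map fun _ => false)).foldl addStep
      (false, n.bits, [])).2.2.reverse = m + n := by
  have h := add_inv (m.bits ++ (false :: n.bits.map fun _ => false)) false n.bits []
  rw [ofBits_append, ofBits_cons, ofBits_map_false, ofBits_bits, ofBits_bits] at h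
  simp only [List.reverse_nil, ofBits_nil, List.length_nil, pow_zero, Bool.toNat_false,
    List.length_append, List.length_cons, List.length_map, mul_zero, add_zero, zero_add,
    one_mul] at h
  rcases Nat.eq_zero_or_pos ((((m.bits ++ (false :: n.bits.map fun _ => false)).foldl addStep
      (false, n.bits, [])).1.toNat + ofBits ((m.bits ++ (false :: n.bits.map fun _ => false)).foldl
      addStep (false, n.bits, [])).2.1)) with h0 | h0
  · rw [h0, mul_zero, add_zero] at h
    exact h
  · exfalso
    have h1 := lt_bits m
    have h2 := lt_bits n
    have h3 : 2 ^ m.bits.length + 2 ^ n.bits.length ≤ 2 ^ (m.bits.length + (n.bits.length + 1)) := by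
      have e1 : 2 ^ (m.bits.length + (n.bits.length + 1)) =
          2 ^ m.bits.length * 2 ^ n.bits.length * 2 := by
        rw [pow_add, pow_succ]; ring
      have h4 : 1 ≤ 2 ^ m.bits.length := Nat.one_le_two_pow
      have h5 : 1 ≤ 2 ^ n.bits.length := Nat.one_le_two_pow
      rw [e1]
      nlinarith
    have h6 := Nat.le_mul_of_pos_right (2 ^ (m.bits.length + (n.bits.length + 1))) h0
    omega

end Nat1Aux

open Nat1Aux

@[fun_prop] protected theorem PT.ofBits {f : α → List Bool} (hf : PT f) :
    PT (fun a => ofBits (f a)) := by
  apply PT.of_enc
  have h : (fun a => (PEnc.enc (ofBits (f a)) : List Bool)) =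
      fun a => ((f a).reverse.dropWhile (fun b => !b)).reverse := by
    funext a
    rw [enc_nat, bits_ofBits]
  rw [h]
  fun_prop

@[fun_prop] protected theorem PT.natAdd {f g : α → ℕ} (hf : PT f) (hg : PT g) :
    PT (fun a => f a + g a) := by
  have h : (fun a => f a + g a) = fun a => ofBits (((f a).bits ++ (false ::
      (g a).bits.map fun _ => false)).foldl addStep (false, (g a).bits, [])).2.2.reverse := by
    funext a
    rw [add_eq]
  rw [h]
  have hstep : PT (fun p : α × (Bool × List Bool × List Bool) × Bool => addStep p.2.1 p.2.2) := by
    unfold addStep
    fun_prop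
  have hfold : PT (fun a => ((f a).bits ++ (false ::
      (g a).bits.map fun _ => false)).foldl addStep (false, (g a).bits, [])) := by
    refine PT.foldl_add (s := fun _ => addStep) (by fun_prop) (by fun_prop) hstep (fun _ => 3)
      (PB.const 3) ?_
    intro a c x _
    obtain ⟨c, r, out⟩ := c
    have : sz r.tail ≤ sz r := by cases r <;> simp
    simp only [addStep, sz_mk, sz_bool, sz_cons]
    omega
  exact PT.ofBits (PT.reverse (PT.snd (PT.snd hfold)))

@[fun_prop] protected theorem PT.succ {f : α → ℕ} (hf : PT f) : PT (fun a => Nat.succ (f a)) := by
  exact PT.natAdd hf (PT.const 1)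

/-- `2 * n + b` -/
@[fun_prop] protected theorem PT.natBit {b : α → Bool} {f : α → ℕ} (hb : PT b) (hf : PT f) :
    PT (fun a => Nat.bit (b a) (f a)) := by
  have h : (fun a => Nat.bit (b a) (f a)) = fun a => ofBits (b a :: (f a).bits) := by
    funext a
    rw [ofBits_cons, ofBits_bits, Nat.bit_val]; ring
  rw [h]
  fun_prop

@[fun_prop] protected theorem PT.bodd {f : α → ℕ} (hf : PT f) : PT (fun a => (f a).bodd) := by
  have h : (fun a => (f a).bodd) = fun a => (f a).bits.headD false := by
    funext a
    rw [Nat.bodd_eq_bits_head]
    cases (f a).bits <;> rfl
  rw [h]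
  fun_prop

@[fun_prop] protected theorem PT.div2 {f : α → ℕ} (hf : PT f) : PT (fun a => (f a).div2) := by
  have h : (fun a => (f a).div2) = fun a => ofBits (f a).bits.tail := by
    funext a
    rw [← Nat.div2_bits_eq_tail, ofBits_bits]
  rw [h]
  fun_prop

end Crest.Agent.PolyT
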