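import Crest.Agent.Lib.PolyTime.Nat1

/-! # PT_NAT2: comparison and subtraction of binary numbers -/

set_option autoImplicit false

namespace Crest.Agent.PolyT

open Crest.Complexity PEnc

variable {α β : Type} [PEnc α] [PEnc β]

namespace Nat2Aux

/-- one step of the subtraction: state (borrow, rest of the second number, output reversed) -/
def subStep (c : Bool × List Bool × List Bool) (x : Bool) : Bool × List Bool × List Bool :=
  ((!x && (c.2.1.headD false || c.1)) || (c.2.1.headD false && c.1), c.2.1.tail,
    (Bool.xor (Bool.xor x c.1) (c.2.1.headD false)) :: c.2.2)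

theorem sub_inv (l : List Bool) : ∀ (c : Bool) (r out : List Bool),
    ofBits (l.foldl subStep (c, r, out)).2.2.reverse + 2 ^ out.length * (c.toNat + ofBits r) =
      ofBits out.reverse + 2 ^ out.length * ofBits l +
      2 ^ (out.length + l.length) * ((l.foldl subStep (c, r, out)).1.toNat +
        ofBits (l.foldl subStep (c, r, out)).2.1) := by
  induction l with
  | nil => intro c r out; simp
  | cons x l ih =>
    intro c r out
    have h := ih (subStep (c, r, out) x).1 (subStep (c, r, out) x).2.1 (subStep (c, r, out) x).2.2
    simp only [List.foldl_cons]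
    have e1 : out.length + (x :: l).length = (subStep (c, r, out) x).2.2.length + l.length := by
      simp only [subStep, List.length_cons]; ring
    rw [e1]
    change ofBits (l.foldl subStep (subStep (c, r, out) x)).2.2.reverse +
      2 ^ (subStep (c, r, out) x).2.2.length * ((subStep (c, r, out) x).1.toNat +
        ofBits (subStep (c, r, out) x).2.1) = ofBits (subStep (c, r, out) x).2.2.reverse +
        2 ^ (subStep (c, r, out) x).2.2.length * ofBits l +
      2 ^ ((subStep (c, r, out) x).2.2.length + l.length) *
        ((l.foldl subStep (subStep (c, r, out) x)).1.toNat +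
        ofBits (l.foldl subStep (subStep (c, r, out) x)).2.1) at h
    generalize 2 ^ ((subStep (c, r, out) x).2.2.length + l.length) *
        ((l.foldl subStep (subStep (c, r, out) x)).1.toNat +
        ofBits (l.foldl subStep (subStep (c, r, out) x)).2.1) = Z at h ⊢
    generalize ofBits (l.foldl subStep (subStep (c, r, out) x)).2.2.reverse = D at h ⊢
    simp only [subStep, List.reverse_cons, Nat1Aux.ofBits_append, List.length_reverse,
      List.length_cons, pow_succ, ofBits_cons, ofBits_nil] at h
    rw [Nat1Aux.ofBits_head_tail r, ofBits_cons]
    have key : x.toNat + 2 * ((!x && (r.headD false || c)) || (r.headD false && c)).toNat =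
        (r.headD false).toNat + c.toNat + (Bool.xor (Bool.xor x c) (r.headD false)).toNat := by
      cases x <;> cases c <;> cases (r.headD false) <;> rfl
    generalize ((!x && (r.headD false || c)) || (r.headD false && c)).toNat = b' at h key
    generalize (Bool.xor (Bool.xor x c) (r.headD false)).toNat = d at h key
    generalize (r.headD false).toNat = y at h key ⊢
    generalize 2 ^ out.length = P at h ⊢
    have key2 : P * x.toNat + P * 2 * b' = P * y + P * c.toNat + P * d := by
      rw [mul_assoc, ← mul_add, key]; ring
    nlinarith

theorem sub_eq (m n : ℕ) :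
    (if (m.bits.foldl subStep (false, n.bits, [])).1 = false ∧
      ofBits (m.bits.foldl subStep (false, n.bits, [])).2.1 = 0 then
      ofBits (m.bits.foldl subStep (false, n.bits, [])).2.2.reverse else 0) = m - n := by
  have h := sub_inv m.bits false n.bits []
  have hlen : ∀ (l : List Bool) (c : Bool × List Bool × List Bool),
      (l.foldl subStep c).2.2.length = c.2.2.length + l.length := by
    intro l
    induction l with
    | nil => intro c; simp
    | cons x l ih => intro c; rw [List.foldl_cons, ih]; simp only [subStep, List.length_cons]; ring
  have hlen1 := hlen m.bits (false, n.bits, [])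
  have hD : ofBits (m.bits.foldl subStep (false, n.bits, [])).2.2.reverse < 2 ^ m.bits.length := by
    have h2 : ∀ l : List Bool, ofBits l < 2 ^ l.length := by
      intro l
      induction l with
      | nil => simp
      | cons b l ih =>
        rw [ofBits_cons, List.length_cons, pow_succ]
        have : b.toNat ≤ 1 := Bool.toNat_le b
        omega
    refine (h2 _).trans_le ?_
    rw [List.length_reverse, hlen1]
    simp
  rw [ofBits_bits, ofBits_bits] at h
  simp only [List.reverse_nil, ofBits_nil, List.length_nil, pow_zero, Bool.toNat_false, one_mul,
    zero_add] at h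
  generalize (m.bits.foldl subStep (false, n.bits, [])) = c at *
  obtain ⟨b, r, out⟩ := c
  simp only at h hD ⊢
  split_ifs with h1
  · obtain ⟨h1, h2⟩ := h1
    rw [h1, h2] at h
    simp at h
    omega
  · have h3 : 1 ≤ b.toNat + ofBits r := by
      by_contra h4
      apply h1
      have h5 : b.toNat = 0 := by omega
      have h6 : ofBits r = 0 := by omega
      refine ⟨?_, h6⟩
      cases b
      · rfl
      · simp at h5
    have h4 := Nat.mul_le_mul_left (2 ^ m.bits.length) h3
    omega

end Nat2Aux

open Nat2Aux

@[fun_prop] protected theorem PT.natSub {f g : α → ℕ} (hf : PT f) (hg : PT g) :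
    PT (fun a => f a - g a) := by
  have hstep : PT (fun p : α × (Bool × List Bool × List Bool) × Bool => subStep p.2.1 p.2.2) := by
    unfold subStep
    fun_prop
  have hfold : PT (fun a => (f a).bits.foldl subStep (false, (g a).bits, [])) := by
    refine PT.foldl_add (s := fun _ => subStep) (by fun_prop) (by fun_prop) hstep (fun _ => 3)
      (PB.const 3) ?_
    intro a c x _
    obtain ⟨c, r, out⟩ := c
    have : sz r.tail ≤ sz r := by cases r <;> simp
    simp only [subStep, sz_mk, sz_bool, sz_cons]
    omega
  obtain ⟨G, hG⟩ : ∃ G : α → Bool × List Bool × List Bool,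
      G = fun a => (f a).bits.foldl subStep (false, (g a).bits, []) := ⟨_, rfl⟩
  have h : (fun a => f a - g a) = fun a =>
      if (G a).1 = false ∧ ofBits (G a).2.1 = 0 then ofBits (G a).2.2.reverse else 0 := by
    funext a
    rw [hG, sub_eq]
  rw [← hG] at hfold
  rw [h]
  fun_prop

@[fun_prop] protected theorem PT.natLe {f g : α → ℕ} (hf : PT f) (hg : PT g) :
    PT (fun a => decide (f a ≤ g a)) := by
  have h : (fun a => decide (f a ≤ g a)) = fun a => decide (f a - g a = 0) := by
    funext a
    rw [decide_eq_decide, Nat.sub_eq_zero_iff_le]
  rw [h]
  fun_prop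

@[fun_prop] protected theorem PT.natLt {f g : α → ℕ} (hf : PT f) (hg : PT g) :
    PT (fun a => decide (f a < g a)) := by
  have h : (fun a => decide (f a < g a)) = fun a => decide (¬ g a ≤ f a) := by
    funext a
    rw [decide_eq_decide, not_le]
  rw [h]
  fun_prop

@[fun_prop] protected theorem PT.natMin {f g : α → ℕ} (hf : PT f) (hg : PT g) :
    PT (fun a => min (f a) (g a)) := by
  have h : (fun a => min (f a) (g a)) = fun a => if f a ≤ g a then f a else g a := by
    funext a
    exact min_def _ _
  rw [h]
  fun_prop

@[fun_prop] protected theorem PT.natMax {f g : α → ℕ} (hf : PT f) (hg : PT g) :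
    PT (fun a => max (f a) (g a)) := by
  have h : (fun a => max (f a) (g a)) = fun a => if f a ≤ g a then g a else f a := by
    funext a
    exact max_def _ _
  rw [h]
  fun_prop

end Crest.Agent.PolyT
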