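import Crest.Agent.Lib.PolyTime.Nat2

/-! # PT_NAT3: multiplication, division, remainder

mul: fold over the bits of the first number, most significant first (`(f a).bits.reverse`):
`acc ↦ 2 * acc + (if bit then g a else 0)`; invariant: `acc` is a truncation of the product, so `acc ≤ f a * g a`.
div/mod: fold over the same bits with state (q, r): `r' = 2 r + bit; if g a ≤ r' then (2q+1, r' - g a) else (2q, r')`
(and `0` when `g a = 0`). -/

set_option autoImplicit false

namespace Crest.Agent.PolyT

open Crest.Complexity PEnc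

variable {α β : Type} [PEnc α] [PEnc β]

namespace Nat3Aux

/-- number given by the first `i` entries of a list of digits, most significant first -/
def pre (l : List Bool) (i : ℕ) : ℕ := ofBits (l.take i).reverse

theorem pre_zero (l : List Bool) : pre l 0 = 0 := by simp [pre]

theorem pre_succ {l : List Bool} {i : ℕ} {x : Bool} (h : l[i]? = some x) :
    pre l (i + 1) = x.toNat + 2 * pre l i := by
  unfold pre
  rw [List.take_add_one, h]
  simp

theorem pre_length (n : ℕ) : pre n.bits.reverse n.bits.reverse.length = n := by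
  unfold pre
  rw [List.take_length, List.reverse_reverse, ofBits_bits]

theorem ofBits_lt (l : List Bool) : ofBits l < 2 ^ l.length := by
  induction l with
  | nil => simp
  | cons b l ih =>
    rw [ofBits_cons, List.length_cons, pow_succ]
    have : b.toNat ≤ 1 := Bool.toNat_le b
    omega

theorem pre_lt (n i : ℕ) : pre n.bits.reverse i < 2 ^ sz n := by
  unfold pre
  refine (ofBits_lt _).trans_le ?_
  apply Nat.pow_le_pow_right (by norm_num)
  rw [List.length_reverse]
  refine (List.length_take_le' i _).trans ?_
  rw [List.length_reverse]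
  exact le_refl _

/-- folding with an invariant, indexed version -/
theorem foldl_pre {γ : Type} (l : List Bool) (z : γ) (s : γ → Bool → γ) (F : ℕ → γ) (h0 : F 0 = z)
    (hs : ∀ (N : ℕ) (x : Bool), s (F N) x = F (x.toNat + 2 * N)) :
    l.foldl s z = F (pre l l.length) := by
  have h : ∀ i, i ≤ l.length → (l.take i).foldl s z = F (pre l i) := by
    intro i
    induction i with
    | zero => intro _; rw [pre_zero, h0]; rfl
    | succ i ih =>
      intro hi
      have h1 : l[i]? = some l[i] := List.getElem?_eq_getElem (by omega)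
      rw [List.take_add_one, h1, pre_succ h1, Option.toList_some, List.foldl_append, ih (by omega)]
      simp only [List.foldl_cons, List.foldl_nil]
      rw [hs]
  have := h l.length le_rfl
  rwa [List.take_length] at this

/-- `PT` of a fold over the binary digits -/
theorem PT_foldBits {γ : Type} [PEnc γ] {f : α → ℕ} (hf : PT f) {z : α → γ} (hz : PT z)
    {s : α → γ → Bool → γ} (hs : PT (fun p : α × γ × Bool => s p.1 p.2.1 p.2.2)) (F : α → ℕ → γ)
    (h0 : ∀ a, F a 0 = z a) (hstep : ∀ a (N : ℕ) (x : Bool), s a (F a N) x = F a (x.toNat + 2 * N))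
    (b : α → ℕ) (hb : PB b) (hF : ∀ a (N : ℕ), N < 2 ^ sz (f a) → sz (F a N) ≤ b a) :
    PT (fun a => F a (f a)) := by
  have h : (fun a => F a (f a)) = fun a => (f a).bits.reverse.foldl (s a) (z a) := by
    funext a
    rw [foldl_pre _ (z a) (s a) (F a) (h0 a) (hstep a), pre_length]
  rw [h]
  refine PT.foldl_inv (by fun_prop) hz hs b hb (fun a i c => c = F a (pre (f a).bits.reverse i)) ?_ ?_ ?_
  · intro a
    show z a = F a (pre _ 0)
    rw [pre_zero, h0]
  · intro a i c x hx hc
    show s a c x = F a (pre _ (i + 1))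
    rw [hc, hstep, pre_succ hx]
  · intro a i c _ hc
    rw [hc]
    exact hF a _ (pre_lt (f a) i)

/-- one step of the division -/
def divStep (g : ℕ) (c : ℕ × ℕ) (x : Bool) : ℕ × ℕ :=
  if 0 < g ∧ g ≤ Nat.bit x c.2 then (Nat.bit true c.1, Nat.bit x c.2 - g)
  else (Nat.bit false c.1, Nat.bit x c.2)

theorem divStep_eq (g N : ℕ) (x : Bool) :
    divStep g (N / g, N % g) x = ((x.toNat + 2 * N) / g, (x.toNat + 2 * N) % g) := by
  unfold divStep
  simp only [Nat.bit_val, Bool.toNat_true, Bool.toNat_false, add_zero]
  have hx : x.toNat ≤ 1 := Bool.toNat_le x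
  rcases Nat.eq_zero_or_pos g with h0 | h0
  · subst h0
    simp
    ring
  · have hN : g * (N / g) + N % g = N := Nat.div_add_mod N g
    have hlt : N % g < g := Nat.mod_lt N h0
    set q := N / g
    set r := N % g
    by_cases h1 : g ≤ 2 * r + x.toNat
    · rw [if_pos ⟨h0, h1⟩]
      have h2 : (x.toNat + 2 * N) / g = 2 * q + 1 := by
        rw [Nat.div_eq_iff h0]
        constructor
        · nlinarith
        · have : (2 * q + 1) * g = 2 * (g * q) + g := by ring
          omega
      have h3 := Nat.div_add_mod (x.toNat + 2 * N) g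
      rw [h2] at h3 ⊢
      have h4 : g * (2 * q + 1) = 2 * (g * q) + g := by ring
      rw [Prod.mk.injEq]
      refine ⟨rfl, ?_⟩
      omega
    · rw [if_neg (fun h => h1 h.2)]
      have h2 : (x.toNat + 2 * N) / g = 2 * q := by
        rw [Nat.div_eq_iff h0]
        constructor
        · nlinarith
        · have : 2 * q * g = 2 * (g * q) := by ring
          omega
      have h3 := Nat.div_add_mod (x.toNat + 2 * N) g
      rw [h2] at h3 ⊢
      have h4 : g * (2 * q) = 2 * (g * q) := by ring
      rw [Prod.mk.injEq]
      refine ⟨rfl, ?_⟩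
      omega

theorem PT_divMod {f g : α → ℕ} (hf : PT f) (hg : PT g) : PT (fun a => (f a / g a, f a % g a)) := by
  have hs : PT (fun p : α × (ℕ × ℕ) × Bool => divStep (g p.1) p.2.1 p.2.2) := by
    unfold divStep
    have hgp : PT (fun p : α × (ℕ × ℕ) × Bool => g p.1) := by fun_prop
    fun_prop
  have hb : PB (fun a => 3 * sz (f a) + 1) := by
    have h1 : PB (fun a => 3 * sz (f a)) := PB.mul (PB.const 3) hf.pb_sz
    exact PB.add h1 (PB.const 1)
  have hz : PT (fun _ : α => ((0, 0) : ℕ × ℕ)) := PT.const _
  refine PT_foldBits hf hz (s := fun a => divStep (g a)) hs (fun a N => (N / g a, N % g a)) ?_ ?_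
    (fun a => 3 * sz (f a) + 1) hb ?_
  · intro a
    simp
  · intro a N x
    exact divStep_eq (g a) N x
  · intro a N hN
    have h1 : sz (N / g a) ≤ sz (f a) :=
      (sz_nat_mono (Nat.div_le_self N (g a))).trans (sz_nat_le_iff.2 hN)
    have h2 : sz (N % g a) ≤ sz (f a) :=
      (sz_nat_mono (Nat.mod_le N (g a))).trans (sz_nat_le_iff.2 hN)
    rw [sz_mk]
    omega

end Nat3Aux

open Nat3Aux

@[fun_prop] protected theorem PT.natMul {f g : α → ℕ} (hf : PT f) (hg : PT g) :
    PT (fun a => f a * g a) := by
  have hs : PT (fun p : α × ℕ × Bool => Nat.bit false p.2.1 + bif p.2.2 then g p.1 else 0) := by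
    have hgp : PT (fun p : α × ℕ × Bool => g p.1) := by fun_prop
    fun_prop
  refine PT_foldBits hf (z := fun _ => 0) (by fun_prop)
    (s := fun a c x => Nat.bit false c + bif x then g a else 0) hs (fun a N => N * g a) ?_ ?_
    (fun a => sz (f a) + sz (g a)) (hf.pb_sz.add hg.pb_sz) ?_
  · intro a
    simp
  · intro a N x
    rw [Nat.bit_val]
    cases x <;> simp <;> ring
  · intro a N hN
    rw [sz_nat_le_iff, pow_add]
    have h1 := lt_two_pow_sz (g a)
    exact Nat.mul_lt_mul'' hN h1

@[fun_prop] protected theorem PT.natDiv {f g : α → ℕ} (hf : PT f) (hg : PT g) :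
    PT (fun a => f a / g a) := PT.fst (PT_divMod hf hg)

@[fun_prop] protected theorem PT.natMod {f g : α → ℕ} (hf : PT f) (hg : PT g) :
    PT (fun a => f a % g a) := PT.snd (PT_divMod hf hg)

@[fun_prop] protected theorem PT.natDvd {f g : α → ℕ} (hf : PT f) (hg : PT g) :
    PT (fun a => decide (f a ∣ g a)) := by
  have h : (fun a => decide (f a ∣ g a)) = fun a => decide (g a % f a = 0) := by
    funext a
    rw [decide_eq_decide]
    exact Nat.dvd_iff_mod_eq_zero
  rw [h]
  fun_prop

end Crest.Agent.PolyT
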