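import Crest.Agent.Lib.PolyTime.Nat3
import Crest.Agent.Lib.PolyTime.Lists2

/-! # PT_NAT4: powers, sums and products over ranges, binomials, factorials

sum over a list / range: foldl with add, size bound: the partial sums are `≤` the total sum
`≤ n * 2^M`, with `M` a polynomial bound of the sizes of the terms (`PT.sz_le`).
prod: sizes add up: `sz (x * y) ≤ sz x + sz y`.  pow: iterate (`PB` exponent).
choose/factorial: by products and exact division, or Pascal rows.
-/

set_option autoImplicit false

namespace Crest.Agent.PolyT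

open Crest.Complexity PEnc

variable {α β : Type} [PEnc α] [PEnc β]

namespace Nat4Aux

theorem sz_natAdd_le (x y : ℕ) : sz (x + y) ≤ sz x + sz y + 1 := by
  rw [sz_nat_le_iff]
  have hx := lt_two_pow_sz x
  have hy := lt_two_pow_sz y
  have h1 : 1 ≤ 2 ^ sz x := Nat.one_le_two_pow
  have h2 : 1 ≤ 2 ^ sz y := Nat.one_le_two_pow
  rw [pow_succ, pow_add]
  nlinarith

theorem sz_natMul_le (x y : ℕ) : sz (x * y) ≤ sz x + sz y := by
  rw [sz_nat_le_iff, pow_add]
  exact Nat.mul_lt_mul'' (lt_two_pow_sz x) (lt_two_pow_sz y)

theorem sz_listSum_le (l : List ℕ) : sz l.sum ≤ sz l := by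
  induction l with
  | nil => simp [sz_nat]
  | cons a l ih =>
    rw [List.sum_cons, sz_cons]
    have := sz_natAdd_le a l.sum
    omega

theorem sz_listProd_le (l : List ℕ) : sz l.prod ≤ sz l + 1 := by
  induction l with
  | nil => simp [sz_nat]
  | cons a l ih =>
    rw [List.prod_cons, sz_cons]
    have := sz_natMul_le a l.prod
    omega

theorem sz_take_le (l : List ℕ) (i : ℕ) : sz (l.take i) ≤ sz l := by
  conv_rhs => rw [← List.take_append_drop i l]
  rw [sz_append]
  omega

theorem foldl_add_eq (l : List ℕ) (z : ℕ) : l.foldl (fun c x => c + x) z = z + l.sum := by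
  induction l generalizing z with
  | nil => simp
  | cons a l ih => rw [List.foldl_cons, ih, List.sum_cons]; ring

theorem foldl_mul_eq (l : List ℕ) (z : ℕ) : l.foldl (fun c x => c * x) z = z * l.prod := by
  induction l generalizing z with
  | nil => simp
  | cons a l ih => rw [List.foldl_cons, ih, List.prod_cons]; ring

theorem sum_range_eq (n : ℕ) (f : ℕ → ℕ) :
    ∑ i ∈ Finset.range n, f i = ((List.range n).map f).sum := by
  induction n with
  | zero => simp
  | succ n ih => rw [Finset.sum_range_succ, ih, List.range_succ]; simp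

theorem prod_range_eq (n : ℕ) (f : ℕ → ℕ) :
    ∏ i ∈ Finset.range n, f i = ((List.range n).map f).prod := by
  induction n with
  | zero => simp
  | succ n ih => rw [Finset.prod_range_succ, ih, List.range_succ]; simp

end Nat4Aux

open Nat4Aux

@[fun_prop] protected theorem PT.listSum {l : α → List ℕ} (hl : PT l) : PT (fun a => (l a).sum) := by
  have h : (fun a => (l a).sum) = fun a => (l a).foldl (fun c x => c + x) 0 := by
    funext a
    rw [foldl_add_eq, zero_add]
  rw [h]
  refine PT.foldl (s := fun _ c x => c + x) (z := fun _ => 0) hl (by fun_prop) (by fun_prop)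
    (fun a => sz (l a)) (PT.pb_sz hl) ?_
  intro a i _
  rw [foldl_add_eq, zero_add]
  exact (sz_listSum_le _).trans (sz_take_le _ _)

@[fun_prop] protected theorem PT.listProd {l : α → List ℕ} (hl : PT l) :
    PT (fun a => (l a).prod) := by
  have h : (fun a => (l a).prod) = fun a => (l a).foldl (fun c x => c * x) 1 := by
    funext a
    rw [foldl_mul_eq, one_mul]
  rw [h]
  refine PT.foldl (s := fun _ c x => c * x) (z := fun _ => 1) hl (by fun_prop) (by fun_prop)
    (fun a => sz (l a) + 1) (PB.add (PT.pb_sz hl) (PB.const 1)) ?_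
  intro a i _
  rw [foldl_mul_eq, one_mul]
  exact (sz_listProd_le _).trans (Nat.add_le_add_right (sz_take_le _ _) 1)

protected theorem PT.sumRange {n : α → ℕ} {f : α → ℕ → ℕ} (hn : PT n) (hb : PB n)
    (hf : PT (fun p : α × Un => f p.1 p.2.val)) :
    PT (fun a => ∑ i ∈ Finset.range (n a), f a i) := by
  simp only [sum_range_eq]
  exact PT.listSum (PT.mapRange hn hb hf)

protected theorem PT.prodRange {n : α → ℕ} {f : α → ℕ → ℕ} (hn : PT n) (hb : PB n)
    (hf : PT (fun p : α × Un => f p.1 p.2.val)) :
    PT (fun a => ∏ i ∈ Finset.range (n a), f a i) := by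
  simp only [prod_range_eq]
  exact PT.listProd (PT.mapRange hn hb hf)

@[fun_prop] protected theorem PT.natPow {f n : α → ℕ} (hf : PT f) (hn : PT n) (hb : PB n) :
    PT (fun a => f a ^ n a) := by
  have h : (fun a => f a ^ n a) = fun a => ∏ _i ∈ Finset.range (n a), f a := by
    funext a
    simp
  rw [h]
  exact PT.prodRange (f := fun a _ => f a) hn hb (by fun_prop)

@[fun_prop] protected theorem PT.factorial {n : α → ℕ} (hn : PT n) (hb : PB n) :
    PT (fun a => (n a).factorial) := by
  have h : (fun a => (n a).factorial) = fun a => ∏ i ∈ Finset.range (n a), (i + 1) := by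
    funext a
    rw [Finset.prod_range_add_one_eq_factorial]
  rw [h]
  exact PT.prodRange (f := fun _ i => i + 1) hn hb (by fun_prop)

/-- binomial coefficients with polynomially bounded lower index (the upper one in binary) -/
@[fun_prop] protected theorem PT.choose {n k : α → ℕ} (hn : PT n) (hk : PT k) (hb : PB k) :
    PT (fun a => (n a).choose (k a)) := by
  have h : (fun a => (n a).choose (k a)) =
      fun a => (∏ i ∈ Finset.range (k a), (n a - i)) / (k a).factorial := by
    funext a
    rw [Nat.choose_eq_descFactorial_div_factorial, Nat.descFactorial_eq_prod_range]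
  rw [h]
  exact PT.natDiv (PT.prodRange (f := fun a i => n a - i) hk hb (by fun_prop))
    (PT.factorial hk hb)

end Crest.Agent.PolyT
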